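import Vale.Agent.P066.Ops

/-!
# P066: the normalised invariants `alpha s G = X(G ∘ K_{s+1}) / [s]_q!`
-/

namespace Vale.Agent.P066

open MvPolynomial Finset

/-- `alpha N s n adj` is `X(G ∘ K_{s+1}) / [s]_q!` for `G = (n, adj)`; defined by a recursion that
stays inside the polynomial ring. -/
noncomputable def alpha (N : ℕ) : ℕ → ℕ → (ℕ → ℕ → Prop) → RR N
  | 0, n, adj => XX N (n + 1) adj
  | s + 1, n, adj =>
      alpha N s (n + 1) (melt n adj 1) - qq N * qn N s * ee N (s + 1) * XX N (n + 1) adj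

theorem qn_eq_C (N k : ℕ) : qn N k = C (∑ i ∈ range k, (Polynomial.X : Polynomial ℤ) ^ i) := by
  unfold qn qq
  simp only [map_sum, map_pow]

theorem qn_ne_zero (N k : ℕ) (hk : 0 < k) : qn N k ≠ 0 := by
  rw [qn_eq_C]
  intro h
  have h1 : (∑ i ∈ range k, (Polynomial.X : Polynomial ℤ) ^ i) = 0 :=
    MvPolynomial.C_injective (Fin N) (Polynomial ℤ) (by rw [h, map_zero])
  have h2 := congrArg (Polynomial.eval 1) h1
  simp [Polynomial.eval_finsetSum] at h2
  omega

theorem qf_ne_zero (N k : ℕ) : qf N k ≠ 0 := by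
  induction k with
  | zero => simp [qf]
  | succ k ih => exact mul_ne_zero ih (qn_ne_zero N (k + 1) (Nat.succ_pos k))

/-- `(q - 1) [k] = q^k - 1`. -/
theorem qn_mul (N k : ℕ) : (qq N - 1) * qn N k = qq N ^ k - 1 := by
  unfold qn
  exact mul_geom_sum (qq N) k

theorem qq_sub_one_ne_zero (N : ℕ) : qq N - 1 ≠ 0 := by
  intro h
  have h0 : qq N - 1 = C ((Polynomial.X : Polynomial ℤ) - Polynomial.C 1) := by
    unfold qq
    simp
  rw [h0] at h
  have h1 : ((Polynomial.X : Polynomial ℤ) - Polynomial.C 1) = 0 :=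
    MvPolynomial.C_injective (Fin N) (Polynomial ℤ) (by rw [h, map_zero])
  exact Polynomial.X_sub_C_ne_zero (1 : ℤ) h1

theorem XX_glue_eq (N s n : ℕ) (adj : ℕ → ℕ → Prop) :
    XX N (n + 1 + s) (melt n adj s) = qf N s * alpha N s n adj := by
  induction s generalizing n adj with
  | zero =>
    simp only [qf, alpha, one_mul, add_zero]
    exact XX_congr _ _ _ _ fun a b hab hb => melt_low hab (by omega)
  | succ s ih =>
    have h1 := rel_melt N n adj (s + 1) 1 (by omega)
    rw [XX_melt_one, ih (n + 1) (melt n adj 1)] at h1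
    have hq1 : qn N 1 = 1 := by simp [qn]
    rw [hq1, Nat.add_sub_cancel] at h1
    simp only [alpha, qf] at h1 ⊢
    linear_combination -h1

theorem alpha_congr (N s n : ℕ) (adj adj' : ℕ → ℕ → Prop)
    (h : ∀ a b, a < b → b ≤ n → (adj a b ↔ adj' a b)) :
    alpha N s n adj = alpha N s n adj' := by
  induction s generalizing n adj adj' with
  | zero =>
    simp only [alpha]
    exact XX_congr _ _ _ _ fun a b hab hb => h a b hab (by omega)
  | succ s ih =>
    simp only [alpha]
    rw [ih (n + 1) (melt n adj 1) (melt n adj' 1)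
      (fun a b hab _ => melt_congr n adj adj' 1 h a b hab),
      XX_congr N (n + 1) adj adj' fun a b hab hb => h a b hab (by omega)]

/-- the one-vertex graph. -/
theorem alpha_point (N s : ℕ) (adj : ℕ → ℕ → Prop) :
    alpha N s 0 adj = qn N (s + 1) * ee N (s + 1) := by
  have h1 := XX_glue_eq N s 0 adj
  rw [XX_complete N (0 + 1 + s) (melt 0 adj s) (fun a b hab hb => by
    rw [melt_high (by omega)]; omega)] at h1
  rw [show 0 + 1 + s = s + 1 by omega] at h1
  simp only [qf] at h1
  have h2 : qf N s * (qn N (s + 1) * ee N (s + 1)) = qf N s * alpha N s 0 adj := by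
    rw [← h1]; ring
  exact (mul_left_cancel₀ (qf_ne_zero N s) h2).symm

end Vale.Agent.P066
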