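import Mathlib

/-!
# P066: internal definitions

Chromatic quasisymmetric polynomials (in `N` variables, coefficients in `ℤ[q]`) of
labelled graphs on the vertex set `{0, ..., n-1}`; the adjacency is a relation on `ℕ`
that is only ever evaluated on pairs `a < b < n`.
-/

namespace Vale.Agent.P066

open MvPolynomial Finset

/-- The ring `ℤ[q][x_0, ..., x_{N-1}]`. -/
abbrev RR (N : ℕ) := MvPolynomial (Fin N) (Polynomial ℤ)

/-- The variable `q`. -/
noncomputable def qq (N : ℕ) : RR N := C Polynomial.X

/-- The `q`-integer `[k]_q = 1 + q + ... + q^(k-1)`. -/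
noncomputable def qn (N k : ℕ) : RR N := ∑ i ∈ range k, qq N ^ i

/-- The `q`-factorial `[k]_q!`. -/
noncomputable def qf (N : ℕ) : ℕ → RR N
  | 0 => 1
  | k + 1 => qf N k * qn N (k + 1)

/-- The elementary symmetric polynomial `e_k(x_0, ..., x_{N-1})`. -/
noncomputable def ee (N k : ℕ) : RR N := esymm (Fin N) (Polynomial ℤ) k

/-- Weight of an edge `a < b` whose ends have colours `c = f a`, `d = f b`:
`0` if the colours agree, `q` for an ascent, `1` for a descent. -/
noncomputable def phi (N : ℕ) (c d : Fin N) : RR N :=
  if c = d then 0 else if c < d then qq N else 1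

open Classical in
/-- Weight of a colouring: product of the edge weights times the monomial. -/
noncomputable def wt (N n : ℕ) (adj : ℕ → ℕ → Prop) (f : Fin n → Fin N) : RR N :=
  (∏ a : Fin n, ∏ b : Fin n,
    if (a < b ∧ adj a b) then phi N (f a) (f b) else 1) * ∏ a : Fin n, X (f a)

/-- The chromatic quasisymmetric polynomial of the labelled graph `({0..n-1}, adj)`. -/
noncomputable def XX (N n : ℕ) (adj : ℕ → ℕ → Prop) : RR N :=
  ∑ f : Fin n → Fin N, wt N n adj f

end Vale.Agent.P066
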