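import Vale.Agent.P066.Statement
import Vale.Agent.P066.Defs

/-!
# P066: the official definition agrees with the internal product-weight definition
-/

namespace Vale.Agent.P066

open MvPolynomial Finset

theorem chromQ_eq_XX (n : ℕ) (h : ℕ → ℕ) (N : ℕ) :
    chromQ n h N = XX N n (fun a b => b ≤ h a) := by
  unfold chromQ XX wt
  refine Finset.sum_congr rfl fun f _ => ?_
  by_cases hp : ∀ a b : Fin n, a < b → (b : ℕ) ≤ h a → f a ≠ f b
  · rw [if_pos hp]
    congr 1
    symm
    have e2 : (∏ a : Fin n, ∏ b : Fin n,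
        if ((a, b).1 < (a, b).2 ∧ ((a, b).2 : ℕ) ≤ h (a, b).1 ∧ f (a, b).1 < f (a, b).2)
          then qq N else 1)
        = C (Polynomial.X ^ (univ.filter (fun p : Fin n × Fin n =>
        p.1 < p.2 ∧ (p.2 : ℕ) ≤ h p.1 ∧ f p.1 < f p.2)).card) := by
      rw [← Finset.prod_product' (s := univ) (t := univ)
        (f := fun a b : Fin n =>
          if ((a, b).1 < (a, b).2 ∧ ((a, b).2 : ℕ) ≤ h (a, b).1 ∧ f (a, b).1 < f (a, b).2)
          then qq N else 1),
        Finset.univ_product_univ]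
      simp only [Prod.mk.eta]
      rw [← Finset.prod_filter, Finset.prod_const, qq, map_pow]
    refine (Finset.prod_congr rfl fun a _ => Finset.prod_congr rfl fun b _ => ?_).trans e2
    by_cases h1 : a < b ∧ (b : ℕ) ≤ h a
    · rw [if_pos h1]
      have hne := hp a b h1.1 h1.2
      by_cases h2 : f a < f b
      · rw [if_pos ⟨h1.1, h1.2, h2⟩]
        simp [phi, hne, h2]
      · rw [if_neg (fun hc => h2 hc.2.2)]
        simp [phi, hne, h2]
    · rw [if_neg h1, if_neg (fun hc => h1 ⟨hc.1, hc.2.1⟩)]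
  · rw [if_neg hp]
    push Not at hp
    obtain ⟨a, b, hab, hb, hf⟩ := hp
    rw [Finset.prod_eq_zero (Finset.mem_univ a), zero_mul]
    refine Finset.prod_eq_zero (Finset.mem_univ b) ?_
    rw [if_pos ⟨hab, hb⟩]
    simp [phi, hf]

end Vale.Agent.P066
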