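import Vale.Agent.P066.Defs

/-!
# P066: the complete graph: `XX = [n]_q! e_n`
-/

namespace Vale.Agent.P066

open MvPolynomial Finset

/-- colouring sum of the complete graph with arbitrary weights -/
noncomputable def DD (N n : ℕ) (y : Fin N → RR N) : RR N :=
  ∑ f : Fin n → Fin N,
    (∏ a : Fin n, ∏ b : Fin n, if a < b then phi N (f a) (f b) else 1) * ∏ a : Fin n, y (f a)

/-- elementary symmetric expression in arbitrary weights -/
noncomputable def EE (N n : ℕ) (y : Fin N → RR N) : RR N :=
  ∑ t ∈ powersetCard n (univ : Finset (Fin N)), ∏ i ∈ t, y i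

theorem DD_zero (N : ℕ) (y : Fin N → RR N) : DD N 0 y = 1 := by
  unfold DD
  simp

theorem EE_zero (N : ℕ) (y : Fin N → RR N) : EE N 0 y = 1 := by
  unfold EE
  simp

theorem DD_succ (N n : ℕ) (y : Fin N → RR N) :
    DD N (n + 1) y = ∑ c : Fin N, y c * DD N n (fun s => phi N c s * y s) := by
  unfold DD
  rw [← (Fin.consEquiv (fun _ : Fin (n + 1) => Fin N)).sum_comp, Fintype.sum_prod_type]
  refine Finset.sum_congr rfl fun c _ => ?_
  rw [Finset.mul_sum]
  refine Finset.sum_congr rfl fun g _ => ?_
  simp only [Fin.consEquiv_apply, Fin.prod_univ_succ, Fin.cons_zero, Fin.cons_succ,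
    Fin.succ_lt_succ_iff, Fin.succ_pos, if_false, if_true, Fin.not_lt_zero,
    one_mul, Finset.prod_mul_distrib]
  ring

theorem rank_sum (N : ℕ) (U : Finset (Fin N)) :
    ∑ c ∈ U, qq N ^ (U.filter (fun u => c < u)).card = ∑ i ∈ range U.card, qq N ^ i := by
  induction U using Finset.induction_on_min with
  | empty => simp
  | insert a s ha ih =>
    have hns : a ∉ s := fun h => lt_irrefl a (ha a h)
    rw [Finset.sum_insert hns, Finset.card_insert_of_notMem hns, Finset.sum_range_succ, ← ih,
      add_comm]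
    congr 1
    · refine Finset.sum_congr rfl fun c hc => ?_
      rw [Finset.filter_insert, if_neg (not_lt.2 (ha c hc).le)]
    · rw [Finset.filter_insert, if_neg (lt_irrefl a), Finset.filter_true_of_mem ha]

theorem prod_phi (N : ℕ) (c : Fin N) (S : Finset (Fin N)) (hc : c ∉ S) :
    ∏ s ∈ S, phi N c s = qq N ^ (S.filter (fun u => c < u)).card := by
  have : ∀ s ∈ S, phi N c s = if c < s then qq N else 1 := by
    intro s hs
    unfold phi
    rw [if_neg (fun h : c = s => hc (h ▸ hs))]
  rw [Finset.prod_congr rfl this, Finset.prod_ite, Finset.prod_const, Finset.prod_const_one,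
    mul_one]

theorem key_sum (N n : ℕ) (y : Fin N → RR N) :
    ∑ c : Fin N, y c * EE N n (fun s => phi N c s * y s) = qn N (n + 1) * EE N (n + 1) y := by
  unfold EE qn
  rw [Finset.mul_sum]
  have h1 : ∀ U ∈ powersetCard (n + 1) (univ : Finset (Fin N)),
      (∑ i ∈ range (n + 1), qq N ^ i) * ∏ i ∈ U, y i =
        ∑ c ∈ U, qq N ^ (U.filter (fun u => c < u)).card * ∏ i ∈ U, y i := by
    intro U hU
    rw [← Finset.sum_mul, rank_sum, (Finset.mem_powersetCard.1 hU).2]
  rw [Finset.sum_congr rfl h1]
  rw [Finset.sum_comm' (s' := fun c => (powersetCard (n + 1) (univ : Finset (Fin N))).filter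
    (fun U => c ∈ U)) (t' := univ) (by
      intro U c
      simp only [Finset.mem_filter, Finset.mem_univ, and_true])]
  refine Finset.sum_congr rfl fun c _ => ?_
  rw [Finset.mul_sum]
  rw [← Finset.sum_filter_add_sum_filter_not (powersetCard n (univ : Finset (Fin N)))
    (fun S => c ∉ S)]
  have h2 : ∑ S ∈ (powersetCard n (univ : Finset (Fin N))).filter (fun S => ¬ c ∉ S),
      y c * ∏ s ∈ S, phi N c s * y s = 0 := by
    refine Finset.sum_eq_zero fun S hS => ?_
    have hc : c ∈ S := by simpa using (Finset.mem_filter.1 hS).2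
    rw [Finset.prod_eq_zero hc (by simp [phi]), mul_zero]
  rw [h2, add_zero]
  refine Finset.sum_nbij' (fun S => insert c S) (fun U => U.erase c) ?_ ?_ ?_ ?_ ?_
  · intro S hS
    obtain ⟨hS1, hS2⟩ := Finset.mem_filter.1 hS
    refine Finset.mem_filter.2 ⟨Finset.mem_powersetCard.2 ⟨Finset.subset_univ _, ?_⟩,
      Finset.mem_insert_self _ _⟩
    rw [Finset.card_insert_of_notMem hS2, (Finset.mem_powersetCard.1 hS1).2]
  · intro U hU
    obtain ⟨hU1, hU2⟩ := Finset.mem_filter.1 hU
    refine Finset.mem_filter.2 ⟨Finset.mem_powersetCard.2 ⟨Finset.subset_univ _, ?_⟩,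
      Finset.notMem_erase _ _⟩
    rw [Finset.card_erase_of_mem hU2, (Finset.mem_powersetCard.1 hU1).2]
    rfl
  · intro S hS
    exact Finset.erase_insert (Finset.mem_filter.1 hS).2
  · intro U hU
    exact Finset.insert_erase (Finset.mem_filter.1 hU).2
  · intro S hS
    have hc := (Finset.mem_filter.1 hS).2
    rw [Finset.prod_mul_distrib, prod_phi N c S hc, Finset.prod_insert hc, Finset.filter_insert,
      if_neg (lt_irrefl c)]
    ring

theorem DD_eq (N n : ℕ) : ∀ y : Fin N → RR N, DD N n y = qf N n * EE N n y := by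
  induction n with
  | zero => intro y; rw [DD_zero, EE_zero]; simp [qf]
  | succ n ih =>
    intro y
    rw [DD_succ]
    simp only [ih]
    have : ∀ c : Fin N, y c * (qf N n * EE N n (fun s => phi N c s * y s)) =
        qf N n * (y c * EE N n (fun s => phi N c s * y s)) := fun c => by ring
    simp only [this]
    rw [← Finset.mul_sum, key_sum]
    simp only [qf]
    ring

theorem XX_complete (N n : ℕ) (adj : ℕ → ℕ → Prop)
    (h : ∀ a b, a < b → b < n → adj a b) :
    XX N n adj = qf N n * ee N n := by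
  have h1 : XX N n adj = DD N n X := by
    unfold XX DD wt
    refine Finset.sum_congr rfl fun f _ => ?_
    congr 1
    refine Finset.prod_congr rfl fun a _ => Finset.prod_congr rfl fun b _ => ?_
    by_cases hab : a < b
    · rw [if_pos hab, if_pos ⟨hab, h a b hab b.2⟩]
    · rw [if_neg hab, if_neg (fun hh => hab hh.1)]
  rw [h1, DD_eq]
  rfl

end Vale.Agent.P066
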