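import Vale.Agent.P066.Positivity
import Vale.Agent.P066.Bridge

/-!
# P066: assembling the chain theorem
-/

namespace Vale.Agent.P066

open MvPolynomial Finset

/-- front block between the cut vertices `x < y`: `x` is joined to an initial segment, all the
vertices strictly between are joined to everything up to `y`. -/
def FrontBlock (h : ℕ → ℕ) (x y : ℕ) : Prop :=
  x < h x ∧ h x ≤ y ∧ ∀ a, x < a → a < y → h a = y

/-- back block between the cut vertices `x < y`: the vertices `x, ..., y-1` form a clique and `y` is
joined exactly to `w, ..., y-1`, where `x < w < y`. -/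
def BackBlock (h : ℕ → ℕ) (x y : ℕ) : Prop :=
  ∃ w, x < w ∧ w < y ∧ (∀ a, x ≤ a → a < w → h a = y - 1) ∧ ∀ a, w ≤ a → a < y → h a = y

theorem InC_block (h : ℕ → ℕ) (x y : ℕ) (hxy : x < y) (hlow : ∀ a, a < x → h a ≤ x)
    (hb : FrontBlock h x y ∨ BackBlock h x y) (hC : InC x (fun a b => b ≤ h a)) :
    InC y (fun a b => b ≤ h a) := by
  rcases hb with ⟨h1, h2, h3⟩ | ⟨w, hxw, hwy, h1, h2⟩
  · -- front block
    have hcongr : ∀ a b, a < b → b ≤ y →
        (melt x (fun a b => b ≤ h a) (h x - x) a b ↔ b ≤ h a) := by
      intro a b hab hby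
      simp only [melt]
      rcases lt_trichotomy a x with ha | ha | ha
      · have := hlow a ha
        omega
      · subst ha
        omega
      · have := h3 a ha (by omega)
        omega
    by_cases hj : h x = y
    · have hcl := InC_clique x (fun a b => b ≤ h a) hC (y - x - 1)
      have e1 : x + (y - x - 1 + 1) = y := by omega
      have e2 : y - x - 1 + 1 = h x - x := by omega
      rw [e1, e2] at hcl
      exact InC_congr y _ _ hcongr hcl
    · have hfr := InC_front x (fun a b => b ≤ h a) hC (y - x - 2) (h x - x) (by omega)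
      have e1 : x + (y - x - 2 + 1) + 1 = y := by omega
      rw [e1] at hfr
      exact InC_congr y _ _ hcongr hfr
  · -- back block
    have hbk := InC_back x (fun a b => b ≤ h a) hC (y - x - 2) (y - w) (by omega)
    have e1 : x + (y - x - 2 + 1) + 1 = y := by omega
    rw [e1] at hbk
    refine InC_congr y _ _ ?_ hbk
    intro a b hab hby
    simp only [zadj, melt]
    rcases lt_or_ge a x with ha | ha
    · have := hlow a ha
      omega
    · rcases lt_or_ge a w with haw | haw
      · have := h1 a ha haw
        omega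
      · have := h2 a haw (by omega)
        omega

theorem InC_chain (h v : ℕ → ℕ) (l : ℕ) (hv0 : v 0 = 0) (hv : ∀ t, t < l → v t < v (t + 1))
    (hb : ∀ t, t < l → FrontBlock h (v t) (v (t + 1)) ∨ BackBlock h (v t) (v (t + 1))) :
    InC (v l) (fun a b => b ≤ h a) := by
  have key : ∀ t, t ≤ l → InC (v t) (fun a b => b ≤ h a) ∧ ∀ a, a < v t → h a ≤ v t := by
    intro t
    induction t with
    | zero =>
      intro _
      rw [hv0]
      exact ⟨InC_point _, fun a ha => absurd ha (Nat.not_lt_zero a)⟩
    | succ t ih =>
      intro ht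
      obtain ⟨hC, hlow⟩ := ih (by omega)
      have hlt := hv t (by omega)
      have hbt := hb t (by omega)
      refine ⟨InC_block h (v t) (v (t + 1)) hlt hlow hbt hC, ?_⟩
      intro a ha
      rcases lt_or_ge a (v t) with ha' | ha'
      · have := hlow a ha'
        omega
      · rcases hbt with ⟨h1, h2, h3⟩ | ⟨w, hxw, hwy, h1, h2⟩
        · rcases Nat.eq_or_lt_of_le ha' with he | hl
          · rw [← he]
            exact h2
          · exact (h3 a hl ha).le
        · rcases lt_or_ge a w with haw | haw
          · have := h1 a ha' haw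
            omega
          · exact (h2 a haw ha).le
  exact (key l le_rfl).1

theorem chain_epos (n l : ℕ) (h v : ℕ → ℕ) (hv0 : v 0 = 0) (hvl : v l = n)
    (hv : ∀ t, t < l → v t < v (t + 1))
    (hb : ∀ t, t < l → FrontBlock h (v t) (v (t + 1)) ∨ BackBlock h (v t) (v (t + 1))) :
    ∃ c : Nat.Partition (n + 1) → Polynomial ℕ, ∀ N,
      chromQ (n + 1) h N
        = ∑ p : Nat.Partition (n + 1), C ((c p).map (Nat.castRingHom ℤ)) * ePart N p := by
  have hC := InC_chain h v l hv0 hv hb
  rw [hvl] at hC
  obtain ⟨c, hc⟩ := hC 0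
  refine ⟨c, fun N => ?_⟩
  rw [chromQ_eq_XX]
  exact hc N

end Vale.Agent.P066
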