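import Vale.Agent.P066.Statement

/-!
# P066: the `e_lambda`, `lambda` a partition of `d`, are linearly independent (use `N = d` variables)
-/

namespace Vale.Agent.P066

open MvPolynomial Finset

/-- The exponent vector of a partition: the multiplicity of the part `i + 1`. -/
noncomputable def expo {d : ℕ} (p : Nat.Partition d) : Fin d →₀ ℕ :=
  Finsupp.equivFunOnFinite.symm (fun i : Fin d => p.parts.count ((i : ℕ) + 1))

lemma expo_apply {d : ℕ} (p : Nat.Partition d) (i : Fin d) :
    expo p i = p.parts.count ((i : ℕ) + 1) := rfl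

lemma part_mem_Ico {d : ℕ} (p : Nat.Partition d) {m : ℕ} (hm : m ∈ p.parts) :
    m ∈ Finset.Ico 1 (d + 1) := by
  have h1 : 0 < m := p.parts_pos hm
  have h2 : m ≤ p.parts.sum := Multiset.le_sum_of_mem hm
  rw [p.parts_sum] at h2
  exact Finset.mem_Ico.mpr ⟨h1, by omega⟩

lemma expo_injective (d : ℕ) : Function.Injective (expo (d := d)) := by
  intro p q h
  apply Nat.Partition.ext
  apply Multiset.ext.mpr
  intro m
  by_cases hm : m ∈ Finset.Ico 1 (d + 1)
  · obtain ⟨h1, h2⟩ := Finset.mem_Ico.mp hm
    have := DFunLike.congr_fun h (⟨m - 1, by omega⟩ : Fin d)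
    rw [expo_apply, expo_apply] at this
    have e : m - 1 + 1 = m := by omega
    simpa [e] using this
  · rw [Multiset.count_eq_zero_of_notMem (fun hh => hm (part_mem_Ico p hh)),
      Multiset.count_eq_zero_of_notMem (fun hh => hm (part_mem_Ico q hh))]

lemma ePart_eq_prod (d : ℕ) (p : Nat.Partition d) :
    ePart d p = ∏ i : Fin d, esymm (Fin d) (Polynomial ℤ) ((i : ℕ) + 1) ^ (expo p i) := by
  unfold ePart
  rw [Finset.prod_multiset_map_count]
  have h1 : ∏ i : Fin d, esymm (Fin d) (Polynomial ℤ) ((i : ℕ) + 1) ^ (expo p i) =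
      ∏ i ∈ Finset.range d, esymm (Fin d) (Polynomial ℤ) (i + 1) ^ (p.parts.count (i + 1)) :=
    Fin.prod_univ_eq_prod_range
      (fun i => esymm (Fin d) (Polynomial ℤ) (i + 1) ^ (p.parts.count (i + 1))) d
  rw [h1]
  have h2 : ∏ i ∈ Finset.range d, esymm (Fin d) (Polynomial ℤ) (i + 1) ^ (p.parts.count (i + 1)) =
      ∏ m ∈ Finset.Ico 1 (d + 1), esymm (Fin d) (Polynomial ℤ) m ^ (p.parts.count m) := by
    rw [Finset.prod_Ico_eq_prod_range]
    apply Finset.prod_congr (by simp)
    intro i _
    rw [add_comm 1 i]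
  rw [h2]
  apply Finset.prod_subset
  · intro m hm
    exact part_mem_Ico p (Multiset.mem_toFinset.mp hm)
  · intro m _ hm
    rw [Multiset.count_eq_zero_of_notMem (fun hh => hm (Multiset.mem_toFinset.mpr hh)), pow_zero]

lemma aeval_monomial_expo (d : ℕ) (p : Nat.Partition d) (r : Polynomial ℤ) :
    aeval (fun i : Fin d => esymm (Fin d) (Polynomial ℤ) ((i : ℕ) + 1)) (monomial (expo p) r) =
      C r * ePart d p := by
  rw [aeval_monomial, algebraMap_eq, ePart_eq_prod, Finsupp.prod_fintype _ _ (fun i => pow_zero _)]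

theorem ePart_unique (d : ℕ) (c c' : Nat.Partition d → Polynomial ℤ)
    (h : ∑ p : Nat.Partition d, C (c p) * ePart d p = ∑ p : Nat.Partition d, C (c' p) * ePart d p) :
    c = c' := by
  classical
  have hinj : Function.Injective
      (aeval (R := Polynomial ℤ) (fun i : Fin d => esymm (Fin d) (Polynomial ℤ) ((i : ℕ) + 1))) := by
    intro a b hab
    apply esymmAlgHom_fin_injective (Polynomial ℤ) (le_refl d)
    apply Subtype.ext
    rw [esymmAlgHom_apply, esymmAlgHom_apply]
    exact hab
  have key : ∑ p : Nat.Partition d, monomial (expo p) (c p) =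
      ∑ p : Nat.Partition d, monomial (expo p) (c' p) := by
    apply hinj
    rw [map_sum, map_sum]
    simp only [aeval_monomial_expo]
    exact h
  funext q
  have hq := congrArg (coeff (expo q)) key
  simp only [coeff_sum, coeff_monomial] at hq
  have e : ∀ f : Nat.Partition d → Polynomial ℤ,
      ∑ p : Nat.Partition d, (if expo p = expo q then f p else 0) = f q := by
    intro f
    rw [Finset.sum_eq_single q]
    · simp
    · intro b _ hb
      rw [if_neg (fun hh => hb (expo_injective d hh))]
    · intro hh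
      exact absurd (Finset.mem_univ q) hh
  rw [e c, e c'] at hq
  exact hq

end Vale.Agent.P066
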