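import Vale.Agent.P066.DPositivity
import Vale.Agent.P066.Final
import Vale.Agent.P066.Unique

/-!
# P066: chains of blocks whose interiors are cliques
-/

namespace Vale.Agent.P066

open MvPolynomial Finset

theorem InC_dblock (h : ℕ → ℕ) (x y : ℕ) (hxy : x < y) (hlow : ∀ a, a < x → h a ≤ x)
    (hmono : ∀ a b, a ≤ b → b < y → h a ≤ h b) (hconn : ∀ a, a < y → a < h a)
    (hcut : ∀ a, a < y → h a ≤ y) (hclq : ∀ a, x < a → a < y → y ≤ h a + 1)
    (hC : InC x (fun a b => b ≤ h a)) :
    InC y (fun a b => b ≤ h a) := by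
  by_cases hx : h x = y
  · refine InC_block h x y hxy hlow (Or.inl ⟨hconn x hxy, hcut x hxy, fun a ha hay => ?_⟩) hC
    have h1 := hmono x a ha.le hay
    have h2 := hcut a hay
    omega
  have hxlt : h x < y := lt_of_le_of_ne (hcut x hxy) hx
  have hxgt : x < h x := hconn x hxy
  have hex : ∃ a, x < a ∧ a < y ∧ h a = y := by
    refine ⟨y - 1, by omega, by omega, ?_⟩
    have h1 := hconn (y - 1) (by omega)
    have h2 := hcut (y - 1) (by omega)
    omega
  classical
  obtain ⟨hxw, hwy, hw⟩ := Nat.find_spec hex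
  have hmin : ∀ a, a < Nat.find hex → ¬ (x < a ∧ a < y ∧ h a = y) := fun a ha => Nat.find_min hex ha
  generalize Nat.find hex = w at hxw hwy hw hmin
  have hbelow : ∀ a, x < a → a < w → h a + 1 = y := by
    intro a ha haw
    have h1 := hmin a haw
    have h2 := hcut a (by omega)
    have h3 := hclq a ha (by omega)
    have h4 : h a ≠ y := fun e => h1 ⟨ha, by omega, e⟩
    omega
  have habove : ∀ a, w ≤ a → a < y → h a = y := by
    intro a ha hay
    have h1 := hmono w a ha hay
    have h2 := hcut a hay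
    omega
  by_cases hw1 : w = x + 1
  · exact InC_block h x y hxy hlow
      (Or.inl ⟨hxgt, hxlt.le, fun a ha hay => habove a (by omega) hay⟩) hC
  have hcongr : ∀ p j i, x + p + 1 = y → x + j = h x → w + i = y → ∀ a b, a < b → b ≤ y →
      (dadj x (fun a b => b ≤ h a) p j i a b ↔ b ≤ h a) := by
    intro p j i hp hj hi a b hab hby
    simp only [dadj]
    rcases lt_trichotomy a x with ha | ha | ha
    · have := hlow a ha
      omega
    · subst ha
      omega
    · rcases lt_or_ge a w with haw | haw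
      · have := hbelow a ha haw
        omega
      · have := habove a haw (by omega)
        omega
  by_cases hij : (y - w) + (h x - x) ≤ y - x - 1
  · have hA := InC_dA x (fun a b => b ≤ h a) hC (h x - x) (y - x - 1 - (h x - x)) (y - w)
      (by omega) (by omega)
    have e1 : x + (h x - x + (y - x - 1 - (h x - x))) + 1 = y := by omega
    rw [e1] at hA
    exact InC_congr y _ _ (hcongr _ _ _ (by omega) (by omega) (by omega)) hA
  · have hB := InC_dB x (fun a b => b ≤ h a) hC (y - x - 1 - (y - w)) (y - w)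
      (h x - x - (y - x - 1 - (y - w))) (by omega) (by omega) (by omega)
    have e1 : x + (y - x - 1 - (y - w) + (y - w)) + 1 = y := by omega
    rw [e1] at hB
    exact InC_congr y _ _ (hcongr _ _ _ (by omega) (by omega) (by omega)) hB

theorem InC_dchain (h v : ℕ → ℕ) (l : ℕ) (hv0 : v 0 = 0) (hv : ∀ t, t < l → v t < v (t + 1))
    (hmono : ∀ a b, a ≤ b → b < v l → h a ≤ h b) (hconn : ∀ a, a < v l → a < h a)
    (hcut : ∀ t, t < l → ∀ a, a < v (t + 1) → h a ≤ v (t + 1))
    (hclq : ∀ t, t < l → ∀ a, v t < a → a < v (t + 1) → v (t + 1) ≤ h a + 1) :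
    InC (v l) (fun a b => b ≤ h a) := by
  have hvm : ∀ t, t ≤ l → v t ≤ v l := by
    intro t ht
    obtain ⟨d, rfl⟩ : ∃ d, l = t + d := ⟨l - t, by omega⟩
    clear hmono hconn hcut hclq ht
    induction d with
    | zero => exact le_rfl
    | succ d ih =>
      have h1 := ih (fun s hs => hv s (by omega))
      have h2 := hv (t + d) (by omega)
      have e : t + (d + 1) = t + d + 1 := by omega
      rw [e]
      omega
  have key : ∀ t, t ≤ l → InC (v t) (fun a b => b ≤ h a) ∧ ∀ a, a < v t → h a ≤ v t := by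
    intro t
    induction t with
    | zero =>
      intro _
      rw [hv0]
      exact ⟨InC_point _, fun a ha => absurd ha (Nat.not_lt_zero a)⟩
    | succ t ih =>
      intro ht
      obtain ⟨hC, hlow⟩ := ih (by omega)
      have hlt := hv t (by omega)
      have hle := hvm (t + 1) ht
      refine ⟨InC_dblock h (v t) (v (t + 1)) hlt hlow
        (fun a b hab hb => hmono a b hab (by omega)) (fun a ha => hconn a (by omega))
        (hcut t (by omega)) (hclq t (by omega)) hC, hcut t (by omega)⟩
  exact (key l le_rfl).1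

theorem dchain_epos (n l : ℕ) (h v : ℕ → ℕ) (hv0 : v 0 = 0) (hvl : v l = n)
    (hv : ∀ t, t < l → v t < v (t + 1))
    (hmono : ∀ a b, a ≤ b → b < n → h a ≤ h b) (hconn : ∀ a, a < n → a < h a)
    (hcut : ∀ t, t < l → ∀ a, a < v (t + 1) → h a ≤ v (t + 1))
    (hclq : ∀ t, t < l → ∀ a, v t < a → a < v (t + 1) → v (t + 1) ≤ h a + 1) :
    ∃ c : Nat.Partition (n + 1) → Polynomial ℕ,
      (∀ N, chromQ (n + 1) h N
        = ∑ p : Nat.Partition (n + 1), C ((c p).map (Nat.castRingHom ℤ)) * ePart N p) ∧
      ∀ c' : Nat.Partition (n + 1) → Polynomial ℤ,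
        (∀ N, chromQ (n + 1) h N = ∑ p : Nat.Partition (n + 1), C (c' p) * ePart N p) →
        ∀ p, c' p = (c p).map (Nat.castRingHom ℤ) := by
  have hC := InC_dchain h v l hv0 hv (by rw [hvl]; exact hmono) (by rw [hvl]; exact hconn) hcut hclq
  rw [hvl] at hC
  obtain ⟨c, hc⟩ := hC 0
  have hc' : ∀ N, chromQ (n + 1) h N
      = ∑ p : Nat.Partition (n + 1), C ((c p).map (Nat.castRingHom ℤ)) * ePart N p := by
    intro N
    rw [chromQ_eq_XX]
    exact hc N
  refine ⟨c, hc', fun c' hc2 p => ?_⟩
  have := ePart_unique (n + 1) c' (fun p => (c p).map (Nat.castRingHom ℤ))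
    ((hc2 (n + 1)).symm.trans (hc' (n + 1)))
  exact congrFun this p

end Vale.Agent.P066
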