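import Vale.Agent.P066.Ops

/-!
# P066: blocks whose interior is a clique (`dadj`) and their local relations
-/

namespace Vale.Agent.P066

open MvPolynomial Finset

/-- `G = (n, adj)` followed by a clique on the `p` interior vertices `n+1..n+p`; the old last vertex
`n` is joined to the first `j` interior vertices; the vertex `u = n+p+1` is joined to the last `i`
interior vertices; all the vertices `≥ n+p+1` form a clique. -/
def dadj (n : ℕ) (adj : ℕ → ℕ → Prop) (p j i : ℕ) : ℕ → ℕ → Prop :=
  fun a b => (b ≤ n ∧ adj a b) ∨ (a = n ∧ b ≤ n + j) ∨ (n < a ∧ b ≤ n + p) ∨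
    (b = n + p + 1 ∧ n + p < a + i) ∨ n + p < a

theorem dadj_low {n : ℕ} {adj : ℕ → ℕ → Prop} {p j i a b : ℕ} (hab : a < b) (hb : b ≤ n) :
    dadj n adj p j i a b ↔ adj a b := by
  unfold dadj
  by_cases h : adj a b <;> simp only [h, and_true, and_false, false_or, iff_true, iff_false] <;>
    omega

theorem dadj_high {n : ℕ} {adj : ℕ → ℕ → Prop} {p j i a b : ℕ} (hb : n < b) :
    dadj n adj p j i a b ↔ ((a = n ∧ b ≤ n + j) ∨ (n < a ∧ b ≤ n + p) ∨
      (b = n + p + 1 ∧ n + p < a + i) ∨ n + p < a) := by
  unfold dadj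
  have : ¬ b ≤ n := by omega
  simp only [this, false_and, false_or]

/-- column relation at `u = n+(j+l)+1`, over the last `l` interior vertices (not joined to `n`). -/
theorem rel_dadj_col (N n : ℕ) (adj : ℕ → ℕ → Prop) (j l m i : ℕ) (hi : i ≤ l) :
    qn N l * XX N (n + 1 + (j + l) + (m + 1)) (dadj n adj (j + l) j i)
      = qn N i * XX N (n + 1 + (j + l) + (m + 1)) (dadj n adj (j + l) j l)
        + qq N ^ i * qn N (l - i) *
          (XX N (n + 1 + (j + l)) (melt n adj j) * (qf N (m + 1) * ee N (m + 1))) := by
  have h3 : ∀ i, i + 2 ≤ l →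
      (1 + qq N) * XX N (n + 1 + (j + l) + (m + 1)) (dadj n adj (j + l) j (i + 1))
      = qq N * XX N (n + 1 + (j + l) + (m + 1)) (dadj n adj (j + l) j i)
        + XX N (n + 1 + (j + l) + (m + 1)) (dadj n adj (j + l) j (i + 2)) := by
    intro i hi
    obtain ⟨t, ht⟩ : ∃ t, l = i + 2 + t := ⟨l - (i + 2), by omega⟩
    refine modular_col N (n + 1 + (j + l) + (m + 1)) _ _ _ (n + (j + l) + 1) (n + j + t + 1)
      (by omega) (by omega) ?_ ?_ ?_ ?_ ?_ ?_ ?_
    · intro a b hab hb
      by_cases hbn : b ≤ n
      · rw [dadj_low hab hbn, dadj_low hab hbn]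
        constructor
        · exact Or.inl
        · rintro (h | h)
          · exact h
          · omega
      · rw [dadj_high (by omega), dadj_high (by omega)]; omega
    · intro a b hab hb
      by_cases hbn : b ≤ n
      · rw [dadj_low hab hbn, dadj_low hab hbn]
        constructor
        · exact Or.inl
        · rintro (h | h)
          · exact h
          · omega
      · rw [dadj_high (by omega), dadj_high (by omega)]; omega
    · rw [dadj_high (by omega)]; omega
    · rw [dadj_high (by omega)]; omega
    · rw [dadj_high (by omega)]; omega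
    · intro x hx
      rw [dadj_high (by omega), dadj_high (by omega)]; omega
    · intro y hy hy2
      rw [dadj_high (by omega), dadj_high (by omega)]; omega
  have h0 : XX N (n + 1 + (j + l) + (m + 1)) (dadj n adj (j + l) j 0)
      = XX N (n + 1 + (j + l)) (melt n adj j) * (qf N (m + 1) * ee N (m + 1)) := by
    rw [XX_mul N (n + 1 + (j + l)) (m + 1) (dadj n adj (j + l) j 0)
      (by intro a b ha hb _; rw [dadj_high (by omega)]; omega)]
    rw [XX_congr N (n + 1 + (j + l)) (dadj n adj (j + l) j 0) (melt n adj j)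
      (fun a b hab hb => by
        by_cases hbn : b ≤ n
        · rw [dadj_low hab hbn, melt_low hab hbn]
        · rw [dadj_high (by omega), melt_high (by omega)]; omega)]
    rw [XX_complete N (m + 1) _ (fun a b _ _ => by rw [dadj_high (by omega)]; omega)]
  have := local_of_three_term (qq N) l
    (fun i => XX N (n + 1 + (j + l) + (m + 1)) (dadj n adj (j + l) j i)) h3 i hi
  simp only [h0] at this
  exact this

/-- `i = 1` (needs an interior vertex not joined to `n`). -/
theorem XX_dadj_one (N n : ℕ) (adj : ℕ → ℕ → Prop) (p j m : ℕ) (hj : j < p) :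
    XX N (n + 1 + p + (m + 1)) (dadj n adj p j 1)
      = XX N (n + p + 1 + (m + 1)) (melt (n + p) (melt n adj j) 1) := by
  rw [show n + 1 + p + (m + 1) = n + p + 1 + (m + 1) by omega]
  refine XX_congr _ _ _ _ fun a b hab hb => ?_
  by_cases hbn : b ≤ n
  · rw [dadj_low hab hbn, melt_low hab (by omega), melt_low hab hbn]
  · by_cases hbp : b ≤ n + p
    · rw [dadj_high (by omega), melt_low hab hbp, melt_high (by omega)]; omega
    · rw [dadj_high (by omega), melt_high (by omega)]; omega

/-- row relation at `n`, over the last `i` interior vertices (all joined to `u`). -/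
theorem rel_dadj_row (N n : ℕ) (adj : ℕ → ℕ → Prop) (j0 i m k : ℕ) (hk : k ≤ i) :
    qn N i * XX N (n + 1 + (j0 + i) + (m + 1)) (dadj n adj (j0 + i) (j0 + k) i)
      = qn N k * XX N (n + 1 + (j0 + i) + (m + 1)) (dadj n adj (j0 + i) (j0 + i) i)
        + qq N ^ k * qn N (i - k) *
          XX N (n + 1 + (j0 + i) + (m + 1)) (dadj n adj (j0 + i) j0 i) := by
  have h3 : ∀ k, k + 2 ≤ i →
      (1 + qq N) * XX N (n + 1 + (j0 + i) + (m + 1)) (dadj n adj (j0 + i) (j0 + (k + 1)) i)
      = qq N * XX N (n + 1 + (j0 + i) + (m + 1)) (dadj n adj (j0 + i) (j0 + k) i)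
        + XX N (n + 1 + (j0 + i) + (m + 1)) (dadj n adj (j0 + i) (j0 + (k + 2)) i) := by
    intro k hk
    refine modular_row N (n + 1 + (j0 + i) + (m + 1)) _ _ _ n (n + j0 + k + 1)
      (by omega) (by omega) ?_ ?_ ?_ ?_ ?_ ?_ ?_
    · intro a b hab hb
      by_cases hbn : b ≤ n
      · rw [dadj_low hab hbn, dadj_low hab hbn]
        constructor
        · exact Or.inl
        · rintro (h | h)
          · exact h
          · omega
      · rw [dadj_high (by omega), dadj_high (by omega)]; omega
    · intro a b hab hb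
      by_cases hbn : b ≤ n
      · rw [dadj_low hab hbn, dadj_low hab hbn]
        constructor
        · exact Or.inl
        · rintro (h | h)
          · exact h
          · omega
      · rw [dadj_high (by omega), dadj_high (by omega)]; omega
    · rw [dadj_high (by omega)]; omega
    · rw [dadj_high (by omega)]; omega
    · rw [dadj_high (by omega)]; omega
    · intro x hx
      rw [dadj_high (by omega), dadj_high (by omega)]; omega
    · intro y hy hy2
      rw [dadj_high (by omega), dadj_high (by omega)]; omega
  have := local_of_three_term (qq N) i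
    (fun k => XX N (n + 1 + (j0 + i) + (m + 1)) (dadj n adj (j0 + i) (j0 + k) i)) h3 k hk
  simp only [Nat.add_zero] at this
  exact this

/-- `j = p`: back-melted block. -/
theorem XX_dadj_full (N n : ℕ) (adj : ℕ → ℕ → Prop) (p i m : ℕ) (hi : i ≤ p) :
    XX N (n + 1 + p + (m + 1)) (dadj n adj p p i) = XX N (n + 1 + p + (m + 1)) (zadj n adj p i) := by
  refine XX_congr _ _ _ _ fun a b hab hb => ?_
  by_cases hbn : b ≤ n
  · rw [dadj_low hab hbn, zadj_low hab (by omega), melt_low hab hbn]
  · by_cases hbp : b ≤ n + p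
    · rw [dadj_high (by omega), zadj_low hab hbp, melt_high (by omega)]; omega
    · rw [dadj_high (by omega), zadj_high (by omega)]; omega

/-- gluing a clique at `u` (needs `j ≤ p`: otherwise `n` would be joined to vertices beyond `u`). -/
theorem XX_dadj_glue (N n : ℕ) (adj : ℕ → ℕ → Prop) (p j i s : ℕ) (hj : j ≤ p) :
    XX N (n + p + 1 + 1 + s) (melt (n + p + 1) (dadj n adj p j i) s)
      = XX N (n + 1 + p + (s + 1)) (dadj n adj p j i) := by
  rw [show n + p + 1 + 1 + s = n + 1 + p + (s + 1) by omega]
  refine XX_congr _ _ _ _ fun a b hab hb => ?_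
  by_cases hbp : b ≤ n + p + 1
  · rw [melt_low hab hbp]
  · rw [dadj_high (by omega), melt_high (by omega)]; omega

end Vale.Agent.P066
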