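import Vale.Agent.P066.Defs

/-!
# P066: `e`-positivity predicates (uniform in the number of variables) and closure lemmas
-/

namespace Vale.Agent.P066

open MvPolynomial Finset

/-- `e_lambda` in `N` variables. -/
noncomputable def eePart (N : ℕ) {d : ℕ} (p : Nat.Partition d) : RR N :=
  (p.parts.map (fun i => ee N i)).prod

/-- The family `F` (one polynomial for each number `N` of variables) is a combination of the
`e_lambda`, `lambda` a partition of `d`, with coefficients in `ℕ[q]` that do not depend on `N`. -/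
def EPos (d : ℕ) (F : ∀ N, RR N) : Prop :=
  ∃ c : Nat.Partition d → Polynomial ℕ, ∀ N,
    F N = ∑ p : Nat.Partition d, C ((c p).map (Nat.castRingHom ℤ)) * eePart N p

/-- The family `p` is (the image of) one polynomial in `ℕ[q]`. -/
def QPos (p : ∀ N, RR N) : Prop :=
  ∃ P : Polynomial ℕ, ∀ N, p N = C (P.map (Nat.castRingHom ℤ))

theorem QPos.one : QPos (fun _ => 1) := ⟨1, fun N => by simp⟩
theorem QPos.zero : QPos (fun _ => 0) := ⟨0, fun N => by simp⟩
theorem QPos.add {p r : ∀ N, RR N} (hp : QPos p) (hr : QPos r) : QPos (fun N => p N + r N) := by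
  obtain ⟨P, hP⟩ := hp
  obtain ⟨R, hR⟩ := hr
  exact ⟨P + R, fun N => by simp only [hP, hR, Polynomial.map_add, map_add]⟩
theorem QPos.mul {p r : ∀ N, RR N} (hp : QPos p) (hr : QPos r) : QPos (fun N => p N * r N) := by
  obtain ⟨P, hP⟩ := hp
  obtain ⟨R, hR⟩ := hr
  exact ⟨P * R, fun N => by simp only [hP, hR, Polynomial.map_mul, map_mul]⟩
theorem QPos.of_qq : QPos (fun N => qq N) := ⟨Polynomial.X, fun N => by simp [qq]⟩
theorem QPos.of_qq_pow (k : ℕ) : QPos (fun N => qq N ^ k) := by
  induction k with
  | zero => simpa using QPos.one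
  | succ k ih =>
    simp only [pow_succ]
    exact ih.mul QPos.of_qq
theorem QPos.of_qn (k : ℕ) : QPos (fun N => qn N k) := by
  induction k with
  | zero => simpa [qn] using QPos.zero
  | succ k ih =>
    simp only [qn, Finset.sum_range_succ]
    exact QPos.add ih (QPos.of_qq_pow k)
theorem QPos.of_qf (k : ℕ) : QPos (fun N => qf N k) := by
  induction k with
  | zero => simpa [qf] using QPos.one
  | succ k ih =>
    simp only [qf]
    exact ih.mul (QPos.of_qn (k + 1))

theorem QPos.of_C (P : Polynomial ℕ) :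
    QPos (fun N => (C (P.map (Nat.castRingHom ℤ)) : RR N)) := ⟨P, fun _ => rfl⟩

theorem EPos.zero (d : ℕ) : EPos d (fun _ => 0) := ⟨fun _ => 0, fun N => by simp⟩
theorem EPos.one : EPos 0 (fun _ => 1) := by
  refine ⟨fun _ => 1, fun N => ?_⟩
  rw [Fintype.sum_unique]
  simp [eePart, Nat.Partition.partition_zero_parts]
theorem EPos.add {d : ℕ} {F G : ∀ N, RR N} (hF : EPos d F) (hG : EPos d G) :
    EPos d (fun N => F N + G N) := by
  obtain ⟨c, hc⟩ := hF
  obtain ⟨c', hc'⟩ := hG
  refine ⟨fun p => c p + c' p, fun N => ?_⟩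
  simp only [hc, hc', Polynomial.map_add, map_add, add_mul, Finset.sum_add_distrib]
theorem EPos.sum {ι : Type*} (s : Finset ι) {d : ℕ} {F : ι → ∀ N, RR N}
    (hF : ∀ i ∈ s, EPos d (F i)) : EPos d (fun N => ∑ i ∈ s, F i N) := by
  classical
  induction s using Finset.induction_on with
  | empty => simpa using EPos.zero d
  | insert a s ha ih =>
    simp only [Finset.sum_insert ha]
    exact EPos.add (hF a (Finset.mem_insert_self a s))
      (ih fun i hi => hF i (Finset.mem_insert_of_mem hi))
theorem EPos.smul {d : ℕ} {p F : ∀ N, RR N} (hp : QPos p) (hF : EPos d F) :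
    EPos d (fun N => p N * F N) := by
  obtain ⟨P, hP⟩ := hp
  obtain ⟨c, hc⟩ := hF
  refine ⟨fun r => P * c r, fun N => ?_⟩
  simp only [hP, hc, Polynomial.map_mul, map_mul, Finset.mul_sum, mul_assoc]
theorem EPos.cast {d d' : ℕ} {F : ∀ N, RR N} (h : d = d') (hF : EPos d F) : EPos d' F := by
  subst h; exact hF
theorem EPos.congr {d : ℕ} {F G : ∀ N, RR N} (h : ∀ N, F N = G N) (hF : EPos d F) : EPos d G := by
  have : F = G := funext h
  subst this; exact hF

/-- a single `e_lambda`. -/
theorem EPos.of_eePart {d : ℕ} (p : Nat.Partition d) : EPos d (fun N => eePart N p) := by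
  classical
  refine ⟨fun r => if r = p then 1 else 0, fun N => ?_⟩
  rw [Finset.sum_eq_single p]
  · simp
  · intro b _ hb
    simp [hb]
  · intro h
    exact absurd (Finset.mem_univ p) h

/-- `e_k * e_lambda`. -/
theorem EPos.ee_mul_eePart {d : ℕ} (k : ℕ) (p : Nat.Partition d) :
    EPos (d + k) (fun N => ee N k * eePart N p) := by
  rcases Nat.eq_zero_or_pos k with rfl | hk
  · refine EPos.congr (fun N => ?_) (EPos.of_eePart p)
    simp [ee, esymm_zero]
  · let p' : Nat.Partition (d + k) :=
      { parts := k ::ₘ p.parts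
        parts_pos := by
          intro i hi
          rcases Multiset.mem_cons.1 hi with rfl | hi
          · exact hk
          · exact p.parts_pos hi
        parts_sum := by
          rw [Multiset.sum_cons, p.parts_sum, add_comm] }
    refine EPos.congr (fun N => ?_) (EPos.of_eePart p')
    simp [eePart, p']

/-- multiplication by `e_k` (also fine for `k = 0`, where `e_0 = 1`). -/
theorem EPos.ee_mul {d : ℕ} {F : ∀ N, RR N} (k : ℕ) (hF : EPos d F) :
    EPos (d + k) (fun N => ee N k * F N) := by
  obtain ⟨c, hc⟩ := hF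
  have h := EPos.sum (Finset.univ : Finset (Nat.Partition d)) (d := d + k)
    (F := fun p N => (C ((c p).map (Nat.castRingHom ℤ)) : RR N) * (ee N k * eePart N p))
    (fun p _ => EPos.smul (QPos.of_C (c p)) (EPos.ee_mul_eePart k p))
  refine EPos.congr (fun N => ?_) h
  rw [hc, Finset.mul_sum]
  refine Finset.sum_congr rfl fun p _ => ?_
  ring

/-- multiplication by a product of `e_k`. -/
theorem EPos.prod_ee_mul {d' : ℕ} {G : ∀ N, RR N} (hG : EPos d' G) (m : Multiset ℕ) :
    EPos (m.sum + d') (fun N => (m.map (fun i => ee N i)).prod * G N) := by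
  induction m using Multiset.induction_on with
  | empty =>
    refine EPos.cast (by simp) (EPos.congr (fun N => ?_) hG)
    simp
  | cons k m ih =>
    refine EPos.cast ?_ (EPos.congr (fun N => ?_) (EPos.ee_mul k ih))
    · rw [Multiset.sum_cons]; ring
    · rw [Multiset.map_cons, Multiset.prod_cons]; ring

/-- product of two `e`-positive families. -/
theorem EPos.mul {d d' : ℕ} {F G : ∀ N, RR N} (hF : EPos d F) (hG : EPos d' G) :
    EPos (d + d') (fun N => F N * G N) := by
  obtain ⟨c, hc⟩ := hF
  have h := EPos.sum (Finset.univ : Finset (Nat.Partition d)) (d := d + d')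
    (F := fun p N => (C ((c p).map (Nat.castRingHom ℤ)) : RR N) * (eePart N p * G N))
    (fun p _ => EPos.smul (QPos.of_C (c p))
      (EPos.cast (by rw [p.parts_sum]) (EPos.prod_ee_mul hG p.parts)))
  refine EPos.congr (fun N => ?_) h
  rw [hc, Finset.sum_mul]
  refine Finset.sum_congr rfl fun p _ => ?_
  ring

end Vale.Agent.P066
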