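import Vale.Agent.P066.Transfer
import Vale.Agent.P066.EPos

/-!
# P066: positivity of the transfer expressions; the class `InC`
-/

namespace Vale.Agent.P066

open MvPolynomial Finset

/-- `G = (n, adj)` is in the class `C`: all `alpha s G` are `e`-positive (uniformly in `N`). -/
def InC (n : ℕ) (adj : ℕ → ℕ → Prop) : Prop :=
  ∀ s, EPos (n + 1 + s) (fun N => alpha N s n adj)

/-! ### abstract truncation identities -/

theorem trunc_low {A : Type*} [CommRing A] (q : A) (Q e al : ℕ → A)
    (hQ : ∀ a b, Q (a + b) = Q a + q ^ a * Q b) (R S K : ℕ) (hK : K ≤ R + 1) :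
    ∑ k ∈ range K, (Q R - Q k) * e k * al (R + S - k)
      = ∑ k ∈ range K, q ^ k * Q (R - k) * e k * al (R + S - k) := by
  refine Finset.sum_congr rfl fun k hk => ?_
  have hk' : k ≤ R := by have := Finset.mem_range.1 hk; omega
  have h := hQ k (R - k)
  rw [Nat.add_sub_cancel' hk'] at h
  rw [h]; ring

theorem trunc_high {A : Type*} [CommRing A] (q : A) (Q e al : ℕ → A)
    (hQ : ∀ a b, Q (a + b) = Q a + q ^ a * Q b) (R S c : ℕ) (hc : c ≤ S) :
    ∑ k ∈ range (R + 1 + c), (Q R - Q k) * e k * al (R + S - k)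
      + q ^ R * ∑ i ∈ range (S + 1), Q (S - i) * e (R + S - i) * al i
    = ∑ k ∈ range (R + 1), q ^ k * Q (R - k) * e k * al (R + S - k)
      + q ^ R * (∑ i ∈ range (S - c), Q (S - i) * e (R + S - i) * al i
          + Q (S - S) * e (R + S - S) * al S) := by
  obtain ⟨t, rfl⟩ : ∃ t, S = t + c := ⟨S - c, by omega⟩
  rw [Finset.sum_range_add _ (R + 1) c, trunc_low q Q e al hQ R (t + c) (R + 1) le_rfl,
    Finset.sum_range_succ _ (t + c), Finset.sum_range_add _ t c]
  have e5 : t + c - c = t := by omega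
  rw [e5]
  have key : ∑ j ∈ range c, (Q R - Q (R + 1 + j)) * e (R + 1 + j) * al (R + (t + c) - (R + 1 + j))
      + q ^ R * ∑ j ∈ range c, Q (t + c - (t + j)) * e (R + (t + c) - (t + j)) * al (t + j)
      = 0 := by
    rw [← Finset.sum_range_reflect
      (fun j => Q (t + c - (t + j)) * e (R + (t + c) - (t + j)) * al (t + j)) c,
      Finset.mul_sum, ← Finset.sum_add_distrib]
    refine Finset.sum_eq_zero fun j hj => ?_
    have hj' : j < c := Finset.mem_range.1 hj
    have e1 : R + (t + c) - (R + 1 + j) = t + (c - 1 - j) := by omega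
    have e2 : t + c - (t + (c - 1 - j)) = 1 + j := by omega
    have e3 : R + (t + c) - (t + (c - 1 - j)) = R + 1 + j := by omega
    have e4 : R + 1 + j = R + (1 + j) := by omega
    rw [e1, e2, e3]
    have h := hQ R (1 + j)
    rw [← e4] at h
    rw [h]; ring
  linear_combination key

theorem qn_add (N a b : ℕ) : qn N (a + b) = qn N a + qq N ^ a * qn N b := by
  unfold qn
  rw [Finset.sum_range_add, Finset.mul_sum]
  simp only [pow_add]

/-! ### positivity of single terms -/

theorem term1_pos (n : ℕ) (adj : ℕ → ℕ → Prop) (h : InC n adj) (R S k : ℕ) (hk : k ≤ R + S) :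
    EPos (n + 1 + R + S)
      (fun N => qq N ^ k * qn N (R - k) * ee N k * alpha N (R + S - k) n adj) := by
  refine EPos.congr (fun N => ?_) (EPos.smul (QPos.mul (QPos.of_qq_pow k) (QPos.of_qn (R - k)))
    (EPos.cast (by omega) (EPos.ee_mul k (h (R + S - k)))))
  ring

theorem term2_pos (n : ℕ) (adj : ℕ → ℕ → Prop) (h : InC n adj) (R S i : ℕ) (hi : i ≤ R + S) :
    EPos (n + 1 + R + S)
      (fun N => qn N (S - i) * ee N (R + S - i) * alpha N i n adj) := by
  refine EPos.congr (fun N => ?_) (EPos.smul (QPos.of_qn (S - i))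
    (EPos.cast (by omega) (EPos.ee_mul (R + S - i) (h i))))
  ring

/-- the common generalisation of `Psi` and `AMinus`. -/
theorem G_pos (n : ℕ) (adj : ℕ → ℕ → Prop) (h : InC n adj) (R S K : ℕ) (hK : K ≤ S + 1) :
    EPos (n + 1 + R + S) (fun N =>
      ∑ k ∈ range K, (qn N R - qn N k) * ee N k * alpha N (R + S - k) n adj
        + qq N ^ R * ∑ i ∈ range (S + 1), qn N (S - i) * ee N (R + S - i) * alpha N i n adj) := by
  by_cases hKR : K ≤ R + 1
  · have h1 : EPos (n + 1 + R + S) (fun N =>
        ∑ k ∈ range K, qq N ^ k * qn N (R - k) * ee N k * alpha N (R + S - k) n adj) :=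
      EPos.sum _ fun k hk => term1_pos n adj h R S k (by have := Finset.mem_range.1 hk; omega)
    have h2 : EPos (n + 1 + R + S) (fun N =>
        ∑ i ∈ range (S + 1), qn N (S - i) * ee N (R + S - i) * alpha N i n adj) :=
      EPos.sum _ fun i hi => term2_pos n adj h R S i (by have := Finset.mem_range.1 hi; omega)
    refine EPos.congr (fun N => ?_) (EPos.add h1 (EPos.smul (QPos.of_qq_pow R) h2))
    rw [trunc_low (qq N) (qn N) (ee N) (fun s => alpha N s n adj) (qn_add N) R S K hKR]
  · obtain ⟨c, rfl⟩ : ∃ c, K = R + 1 + c := ⟨K - (R + 1), by omega⟩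
    have hc : c ≤ S := by omega
    have h1 : EPos (n + 1 + R + S) (fun N =>
        ∑ k ∈ range (R + 1), qq N ^ k * qn N (R - k) * ee N k * alpha N (R + S - k) n adj) :=
      EPos.sum _ fun k hk => term1_pos n adj h R S k (by have := Finset.mem_range.1 hk; omega)
    have h2 : EPos (n + 1 + R + S) (fun N =>
        ∑ i ∈ range (S - c), qn N (S - i) * ee N (R + S - i) * alpha N i n adj) :=
      EPos.sum _ fun i hi => term2_pos n adj h R S i (by have := Finset.mem_range.1 hi; omega)
    have h3 := term2_pos n adj h R S S (by omega)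
    refine EPos.congr (fun N => ?_)
      (EPos.add h1 (EPos.smul (QPos.of_qq_pow R) (EPos.add h2 h3)))
    rw [trunc_high (qq N) (qn N) (ee N) (fun s => alpha N s n adj) (qn_add N) R S c hc]

theorem ee_pos (k : ℕ) : EPos k (fun N => ee N k) := by
  refine EPos.congr (fun N => ?_) (EPos.cast (by omega) (EPos.ee_mul k EPos.one))
  ring

theorem theta_term_pos (m k : ℕ) (hk : 2 * k ≤ m) :
    EPos m (fun N => (qn N (m - k) - qn N k) * ee N k * ee N (m - k)) := by
  refine EPos.congr (fun N => ?_) (EPos.smul (QPos.mul (QPos.of_qq_pow k) (QPos.of_qn (m - 2 * k)))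
    (EPos.cast (by omega) (EPos.ee_mul k (ee_pos (m - k)))))
  have h := qn_add N k (m - 2 * k)
  have e : k + (m - 2 * k) = m - k := by omega
  rw [e] at h
  rw [h]; ring

theorem theta_pos (p s : ℕ) : EPos (p + s + 1) (fun N => theta N p s) := by
  by_cases hsp : s ≤ p
  · unfold theta
    exact EPos.sum _ fun k hk => theta_term_pos (p + s + 1) k
      (by have := Finset.mem_range.1 hk; omega)
  · obtain ⟨c, rfl⟩ : ∃ c, s = p + c := ⟨s - p, by omega⟩
    have h1 : EPos (p + (p + c) + 1) (fun N => ∑ k ∈ range (p + 1),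
        (qn N (p + (p + c) + 1 - k) - qn N k) * ee N k * ee N (p + (p + c) + 1 - k)) :=
      EPos.sum _ fun k hk => theta_term_pos (p + (p + c) + 1) k
        (by have := Finset.mem_range.1 hk; omega)
    refine EPos.congr (fun N => ?_) h1
    unfold theta
    have e0 : p + c + 1 = p + 1 + c := by omega
    rw [e0, Finset.sum_range_add _ (p + 1) c]
    set Z : RR N := ∑ j ∈ range c, (qn N (p + (p + c) + 1 - (p + 1 + j)) - qn N (p + 1 + j))
      * ee N (p + 1 + j) * ee N (p + (p + c) + 1 - (p + 1 + j)) with hZ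
    have hneg : Z = -Z := by
      conv_lhs => rw [hZ, ← Finset.sum_range_reflect]
      rw [hZ, ← Finset.sum_neg_distrib]
      refine Finset.sum_congr rfl fun j hj => ?_
      have hj' : j < c := Finset.mem_range.1 hj
      have e1 : p + (p + c) + 1 - (p + 1 + (c - 1 - j)) = p + 1 + j := by omega
      have e2 : p + (p + c) + 1 - (p + 1 + j) = p + 1 + (c - 1 - j) := by omega
      rw [e1, e2]; ring
    have hZ0 : Z = 0 := by
      have h2 : (2 : RR N) * Z = 0 := by linear_combination hneg
      rcases mul_eq_zero.1 h2 with h | h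
      · exact absurd h two_ne_zero
      · exact h
    rw [hZ0, add_zero]

theorem Psi_pos (n : ℕ) (adj : ℕ → ℕ → Prop) (h : InC n adj) (R S : ℕ) :
    EPos (n + 1 + R + S) (fun N => Psi N n adj R S) :=
  G_pos n adj h R S (S + 1) le_rfl

theorem AMinus_pos (n : ℕ) (adj : ℕ → ℕ → Prop) (h : InC n adj) (p m : ℕ) :
    EPos (n + 1 + p + m) (fun N => AMinus N n adj p m) := by
  refine EPos.congr (fun N => ?_) (G_pos n adj h p m m (by omega))
  unfold AMinus Psi
  have e := Finset.sum_range_succ
    (fun k => (qn N p - qn N k) * ee N k * alpha N (p + m - k) n adj) m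
  rw [e, Nat.add_sub_cancel]
  ring

theorem InC_point (adj : ℕ → ℕ → Prop) : InC 0 adj := by
  intro s
  refine EPos.congr (fun N => (alpha_point N s adj).symm)
    (EPos.smul (QPos.of_qn (s + 1)) (EPos.cast (by omega) (ee_pos (s + 1))))

theorem InC_congr (n : ℕ) (adj adj' : ℕ → ℕ → Prop)
    (h : ∀ a b, a < b → b ≤ n → (adj a b ↔ adj' a b)) (hC : InC n adj) : InC n adj' := by
  intro s
  exact EPos.congr (fun N => alpha_congr N s n adj adj' h) (hC s)

theorem InC_clique (n : ℕ) (adj : ℕ → ℕ → Prop) (h : InC n adj) (r : ℕ) :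
    InC (n + (r + 1)) (melt n adj (r + 1)) := by
  intro s
  exact EPos.congr (fun N => (transfer N n adj r s).symm)
    (EPos.smul (QPos.of_qf r) (EPos.cast (by omega) (Psi_pos n adj h (r + 1) s)))

theorem InC_front (n : ℕ) (adj : ℕ → ℕ → Prop) (h : InC n adj) (r j : ℕ) (hj : j ≤ r + 1) :
    InC (n + (r + 1) + 1) (melt n adj j) := by
  intro s
  have hX : EPos (n + 1 + 0) (fun N => XX N (n + 1) adj) := h 0
  have h1 : EPos (n + (r + 1) + 1 + 1 + s) (fun N => qn N j * AMinus N n adj (r + 1) (s + 1)) :=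
    EPos.smul (QPos.of_qn j) (EPos.cast (by omega) (AMinus_pos n adj h (r + 1) (s + 1)))
  have h2 : EPos (n + (r + 1) + 1 + 1 + s) (fun N =>
      (qq N ^ j * qn N (r + 1 - j)) * (XX N (n + 1) adj * theta N (r + 1) s)) :=
    EPos.smul (QPos.mul (QPos.of_qq_pow j) (QPos.of_qn (r + 1 - j)))
      (EPos.cast (by omega) (EPos.mul hX (theta_pos (r + 1) s)))
  refine EPos.congr (fun N => ?_) (EPos.smul (QPos.of_qf r) (EPos.add h1 h2))
  rw [alpha_front N n adj r j s hj]
  ring

theorem InC_back (n : ℕ) (adj : ℕ → ℕ → Prop) (h : InC n adj) (r i : ℕ) (hi : i ≤ r + 1) :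
    InC (n + (r + 1) + 1) (zadj n adj (r + 1) i) := by
  intro s
  have h1 : EPos (n + (r + 1) + 1 + 1 + s) (fun N => qn N i * AMinus N n adj (r + 1) (s + 1)) :=
    EPos.smul (QPos.of_qn i) (EPos.cast (by omega) (AMinus_pos n adj h (r + 1) (s + 1)))
  have h2 : EPos (n + (r + 1) + 1 + 1 + s) (fun N =>
      (qq N ^ i * qn N (r + 1 - i) * qn N (s + 1)) * (ee N (s + 1) * alpha N (r + 1) n adj)) :=
    EPos.smul (QPos.mul (QPos.mul (QPos.of_qq_pow i) (QPos.of_qn (r + 1 - i))) (QPos.of_qn (s + 1)))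
      (EPos.cast (by omega) (EPos.ee_mul (s + 1) (h (r + 1))))
  refine EPos.congr (fun N => ?_) (EPos.smul (QPos.of_qf r) (EPos.add h1 h2))
  rw [alpha_back N n adj r i s hi]
  ring

end Vale.Agent.P066
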