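import Vale.Agent.P066.DTransfer
import Vale.Agent.P066.Positivity

/-!
# P066: positivity for the blocks `dadj`, case A
-/

namespace Vale.Agent.P066

open MvPolynomial Finset

/-- the expression of `G_pos`. -/
noncomputable def GG (N n : ℕ) (adj : ℕ → ℕ → Prop) (R S K : ℕ) : RR N :=
  ∑ k ∈ range K, (qn N R - qn N k) * ee N k * alpha N (R + S - k) n adj
    + qq N ^ R * ∑ i ∈ range (S + 1), qn N (S - i) * ee N (R + S - i) * alpha N i n adj

/-- truncated `theta`. -/
noncomputable def TT (N p s K : ℕ) : RR N :=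
  ∑ k ∈ range K, (qn N (p + s + 1 - k) - qn N k) * ee N k * ee N (p + s + 1 - k)

theorem GG_pos (n : ℕ) (adj : ℕ → ℕ → Prop) (h : InC n adj) (R S K : ℕ) (hK : K ≤ S + 1) :
    EPos (n + 1 + R + S) (fun N => GG N n adj R S K) :=
  G_pos n adj h R S K hK

theorem TT_pos (p s K : ℕ) (hK : 2 * K ≤ p + s + 3) :
    EPos (p + s + 1) (fun N => TT N p s K) := by
  unfold TT
  exact EPos.sum _ fun k hk => theta_term_pos (p + s + 1) k
    (by have := Finset.mem_range.1 hk; omega)

theorem AMinus_eq_GG (N n : ℕ) (adj : ℕ → ℕ → Prop) (R m : ℕ) :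
    AMinus N n adj R (m + 1) = GG N n adj R (m + 1) m
      + (qn N R - qn N m) * ee N m * alpha N (R + 1) n adj := by
  unfold AMinus Psi GG
  rw [Finset.sum_range_succ (fun k => (qn N R - qn N k) * ee N k * alpha N (R + (m + 1) - k) n adj)
    (m + 1), Finset.sum_range_succ
    (fun k => (qn N R - qn N k) * ee N k * alpha N (R + (m + 1) - k) n adj) m]
  have e1 : R + (m + 1) - (m + 1) = R := by omega
  have e2 : R + (m + 1) - m = R + 1 := by omega
  rw [e1, e2]
  ring

theorem theta_eq_TT (N R m : ℕ) :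
    theta N R m = TT N R m m + (qn N (R + 1) - qn N m) * ee N m * ee N (R + 1) := by
  unfold theta TT
  rw [Finset.sum_range_succ]
  have e2 : R + m + 1 - m = R + 1 := by omega
  rw [e2]

theorem AMinus_one (N n : ℕ) (adj : ℕ → ℕ → Prop) (R : ℕ) :
    AMinus N n adj R 1 = qn N R * alpha N (R + 1) n adj
      + qq N ^ R * ee N (R + 1) * XX N (n + 1) adj := by
  rw [AMinus_eq_GG]
  unfold GG
  have hX : alpha N 0 n adj = XX N (n + 1) adj := rfl
  simp [Finset.sum_range_succ, qn_zero, qn_one, ee_zero, hX]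
  ring

theorem theta_zero (N R : ℕ) : theta N R 0 = qn N (R + 1) * ee N (R + 1) := by
  unfold theta
  simp [qn_zero, ee_zero]

/-- explicit form of `alpha_dA` when there is an interior vertex not joined to `n`. -/
theorem alpha_dA_formula (N n : ℕ) (adj : ℕ → ℕ → Prop) (j l i s r : ℕ) (hi : i ≤ l)
    (hr : j + l = r + 1 + 1) (hl : 1 ≤ l) :
    alpha N s (n + (j + l) + 1) (dadj n adj (j + l) j i)
      = qf N r * (qn N i * qn N j * GG N n adj (r + 1) (s + 1 + 1) (s + 1)
          + qn N i * qq N ^ j * qn N (r + 1 - j) * (XX N (n + 1) adj * TT N (r + 1) (s + 1) (s + 1))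
          + qn N j * (qn N (s + 1) * (qn N (r + 1) - qn N i))
              * (ee N (s + 1) * alpha N (r + 1 + 1) n adj)
          + (qq N ^ j * qn N (r + 1 - j) * qn N (s + 1) * (qn N (r + 1 + 1) - qn N i)
              + (qn N (s + 1) - qn N i) * qn N j * qq N ^ (r + 1))
              * (ee N (s + 1) * (ee N (r + 1 + 1) * XX N (n + 1) adj))) := by
  rw [alpha_dA N n adj j l i s hi]
  have e : n + (j + l) = n + (r + 1) + 1 := by omega
  rw [e, alpha_front N n adj r j (s + 1) (by omega), alpha_front N n adj r j 0 (by omega),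
    AMinus_eq_GG, theta_eq_TT, AMinus_one, theta_zero]
  ring

/-- the coefficient of `e_m e_{R+1} X` is in `ℕ[q]`. -/
theorem coef2_eq (N j s c u : ℕ) :
    qq N ^ j * qn N (s + c + u + 1) * qn N (s + 1)
        * (qn N (j + s + c + u + 1 + 1) - qn N (s + c + 2))
      + (qn N (s + 1) - qn N (s + c + 2)) * qn N j * qq N ^ (j + s + c + u + 1)
    = qq N ^ (j + (s + c + 2)) * (qn N (c + 1) * qn N s * qn N (u + j)
        + qn N (c + 1) * qq N ^ s * qn N u
        + qq N ^ (c + 1) * qn N (s + u) * qn N (s + 1) * qn N (u + j)) := by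
  have h1 := qn_add N (s + c + 2) (u + j)
  have h2 := qn_add N (s + 1) (c + 1)
  have h3 := qn_add N (c + 1) (s + u)
  have h4 := qn_add N s 1
  have h5 := qn_add N u j
  have e1 : j + s + c + u + 1 + 1 = s + c + 2 + (u + j) := by omega
  have e2 : s + c + 2 = s + 1 + (c + 1) := by omega
  have e3 : s + c + u + 1 = c + 1 + (s + u) := by omega
  rw [e1, h1, e3, h3, e2, h2, h4, h5, qn_one]
  ring

theorem InC_dA_aux (n : ℕ) (adj : ℕ → ℕ → Prop) (h : InC n adj) (j l i : ℕ) (hj : 1 ≤ j)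
    (hi : i ≤ l) :
    InC (n + (j + l) + 1) (dadj n adj (j + l) j i) := by
  have hG1 : InC (n + (j + l)) (melt n adj j) := by
    rcases Nat.eq_zero_or_pos l with rfl | hl
    · obtain ⟨r, rfl⟩ : ∃ r, j = r + 1 := ⟨j - 1, by omega⟩
      exact InC_clique n adj h r
    · obtain ⟨r, hr⟩ : ∃ r, j + l = r + 1 + 1 := ⟨j + l - 2, by omega⟩
      have e : n + (j + l) = n + (r + 1) + 1 := by omega
      rw [e]
      exact InC_front n adj h r j (by omega)
  intro s
  by_cases hsi : i ≤ s + 1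
  · -- `[m] - [i] = q^i [m - i]`
    have h1 : EPos (n + (j + l) + 1 + 1 + s)
        (fun N => qn N i * alpha N (s + 1) (n + (j + l)) (melt n adj j)) :=
      EPos.smul (QPos.of_qn i) (EPos.cast (by omega) (hG1 (s + 1)))
    have h2 : EPos (n + (j + l) + 1 + 1 + s) (fun N => (qq N ^ i * qn N (s + 1 - i)) *
        (ee N (s + 1) * alpha N 0 (n + (j + l)) (melt n adj j))) :=
      EPos.smul (QPos.mul (QPos.of_qq_pow i) (QPos.of_qn (s + 1 - i)))
        (EPos.cast (by omega) (EPos.ee_mul (s + 1) (hG1 0)))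
    refine EPos.congr (fun N => ?_) (EPos.add h1 h2)
    rw [alpha_dA N n adj j l i s hi]
    have h3 := qn_add N i (s + 1 - i)
    rw [Nat.add_sub_cancel' hsi] at h3
    rw [h3]
    ring
  · obtain ⟨c, rfl⟩ : ∃ c, i = s + c + 2 := ⟨i - s - 2, by omega⟩
    obtain ⟨u, rfl⟩ : ∃ u, l = s + c + 2 + u := ⟨l - (s + c + 2), by omega⟩
    have hr : j + (s + c + 2 + u) = (j + s + c + u) + 1 + 1 := by omega
    have hX : EPos (n + 1 + 0) (fun N => XX N (n + 1) adj) := h 0
    set r := j + s + c + u with hrdef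
    set d := n + (j + (s + c + 2 + u)) + 1 + 1 + s with hd
    have t1 : EPos d (fun N => (qn N (s + c + 2) * qn N j) *
        GG N n adj (r + 1) (s + 1 + 1) (s + 1)) :=
      EPos.smul (QPos.mul (QPos.of_qn _) (QPos.of_qn _))
        (EPos.cast (by omega) (GG_pos n adj h (r + 1) (s + 1 + 1) (s + 1) (by omega)))
    have t2 : EPos d (fun N => (qn N (s + c + 2) * qq N ^ j * qn N (r + 1 - j)) *
        (XX N (n + 1) adj * TT N (r + 1) (s + 1) (s + 1))) :=
      EPos.smul (QPos.mul (QPos.mul (QPos.of_qn _) (QPos.of_qq_pow _)) (QPos.of_qn _))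
        (EPos.cast (by omega) (EPos.mul hX (TT_pos (r + 1) (s + 1) (s + 1) (by omega))))
    have t3 : EPos d (fun N => (qn N j * (qn N (s + 1) * (qq N ^ (s + c + 2) * qn N (j + u - 1)))) *
        (ee N (s + 1) * alpha N (r + 1 + 1) n adj)) :=
      EPos.smul (QPos.mul (QPos.of_qn _) (QPos.mul (QPos.of_qn _)
        (QPos.mul (QPos.of_qq_pow _) (QPos.of_qn _))))
        (EPos.cast (by omega) (EPos.ee_mul (s + 1) (h (r + 1 + 1))))
    have t4 : EPos d (fun N => (qq N ^ (j + (s + c + 2)) * (qn N (c + 1) * qn N s * qn N (u + j)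
        + qn N (c + 1) * qq N ^ s * qn N u
        + qq N ^ (c + 1) * qn N (s + u) * qn N (s + 1) * qn N (u + j))) *
        (ee N (s + 1) * (ee N (r + 1 + 1) * XX N (n + 1) adj))) :=
      EPos.smul (QPos.mul (QPos.of_qq_pow _) (QPos.add (QPos.add
        (QPos.mul (QPos.mul (QPos.of_qn _) (QPos.of_qn _)) (QPos.of_qn _))
        (QPos.mul (QPos.mul (QPos.of_qn _) (QPos.of_qq_pow _)) (QPos.of_qn _)))
        (QPos.mul (QPos.mul (QPos.mul (QPos.of_qq_pow _) (QPos.of_qn _)) (QPos.of_qn _))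
          (QPos.of_qn _))))
        (EPos.cast (by omega) (EPos.ee_mul (s + 1) (EPos.ee_mul (r + 1 + 1) hX)))
    refine EPos.congr (fun N => ?_)
      (EPos.smul (QPos.of_qf r) (EPos.add (EPos.add (EPos.add t1 t2) t3) t4))
    rw [alpha_dA_formula N n adj j (s + c + 2 + u) (s + c + 2) s r hi hr (by omega)]
    have hc2 := coef2_eq N j s c u
    have e1 : r + 1 - j = s + c + u + 1 := by omega
    have h3 := qn_add N (s + c + 2) (j + u - 1)
    have e3 : s + c + 2 + (j + u - 1) = r + 1 := by omega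
    rw [e3] at h3
    rw [e1, h3, ← hc2]
    ring

end Vale.Agent.P066
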