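import Vale.Agent.P066.DTransfer
import Vale.Agent.P066.Positivity
import Vale.Agent.P066.DPosA

/-!
# P066: positivity for the blocks `dadj`, case B
-/

namespace Vale.Agent.P066

open MvPolynomial Finset

/-- `[k][a+b+1] + q^k [c][a] = [b+1][k+a]` when `k + c = b + 1`. -/
theorem qn_cross (N a b k c : ℕ) (hkc : k + c = b + 1) :
    qn N k * qn N (a + b + 1) + qq N ^ k * qn N c * qn N a = qn N (b + 1) * qn N (k + a) := by
  have h1 := qn_add N (k + c) a
  have h2 := qn_add N k c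
  have h3 := qn_add N c k
  have h4 := qn_add N k a
  have e1 : a + b + 1 = k + c + a := by omega
  have e2 : c + k = k + c := by omega
  rw [e2] at h3
  rw [e1, ← hkc, h1, h4]
  rw [h2] at h3
  rw [h2, pow_add]
  linear_combination (- qq N ^ k * qn N a) * h3

/-- explicit form of `alpha` of the block in case B. -/
theorem alpha_dB_formula (N n : ℕ) (adj : ℕ → ℕ → Prop) (a b k c s : ℕ) (hkc : k + c = b + 1) :
    alpha N s (n + (a + 1 + (b + 1)) + 1) (dadj n adj (a + 1 + (b + 1)) (a + 1 + k) (b + 1))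
      = qn N k * qf N (a + b + 1) * AMinus N n adj (a + b + 1 + 1) (s + 1)
        + qf N (a + b) * (qq N ^ (b + 1) * qn N (a + 1) * qn N (s + 1) * qn N (k + a)
              * (ee N (s + 1) * alpha N (a + b + 1 + 1) n adj)
            + qq N ^ k * qn N c * (qn N (a + 1) * GG N n adj (a + b + 1) (s + 1 + 1) (s + 1)
              + qq N ^ (a + 1) * qn N b
                  * (XX N (n + 1) adj * TT N (a + b + 1) (s + 1) (s + 1))
              + qn N (a + 1) * qq N ^ (a + b + 1 + 1) * qn N s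
                  * (ee N (s + 1) * (ee N (a + b + 1 + 1) * XX N (n + 1) adj)))) := by
  have hB := alpha_dB N n adj (a + 1) (b + 1) k s (by omega)
  have hZ := alpha_back N n adj (a + b + 1) (b + 1) s (by omega)
  have hE := alpha_dA_formula N n adj (a + 1) (b + 1) (b + 1) s (a + b) le_rfl (by omega)
    (by omega)
  have e : a + 1 + (b + 1) = a + b + 1 + 1 := by omega
  have e2 : b + 1 - k = c := by omega
  have e3 : a + b + 1 + 1 - (b + 1) = a + 1 := by omega
  have e4 : a + b + 1 - (a + 1) = b := by omega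
  rw [e, e2] at hB
  rw [e, e4] at hE
  rw [e3] at hZ
  rw [e]
  rw [hZ, hE] at hB
  apply mul_left_cancel₀ (qn_ne_zero N (b + 1) (Nat.succ_pos b))
  rw [hB]
  have h1 : qn N (a + b + 1) = qn N (b + 1) + qq N ^ (b + 1) * qn N a := by
    rw [← qn_add]; congr 1; omega
  have h2 : qn N (a + b + 1 + 1) = qn N (b + 1) + qq N ^ (b + 1) * qn N (a + 1) := by
    rw [← qn_add]; congr 1; omega
  have hI := qn_cross N a b k c hkc
  have h4 := qn_succ' N b
  have h5 := qn_succ' N s
  rw [qf_succ]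
  linear_combination
    (qf N (a + b) * qn N (a + 1) * qn N (s + 1) * qq N ^ (b + 1)
        * (ee N (s + 1) * alpha N (a + b + 1 + 1) n adj)) * hI
    + (qq N ^ k * qn N c * qf N (a + b) * qn N (a + 1) * qn N (s + 1)
        * (ee N (s + 1) * alpha N (a + b + 1 + 1) n adj)) * h1
    + (qq N ^ k * qn N c * qf N (a + b)
        * (ee N (s + 1) * (ee N (a + b + 1 + 1) * XX N (n + 1) adj))
        * qq N ^ (a + 1) * qn N b * qn N (s + 1)) * h2
    - (qq N ^ k * qn N c * qf N (a + b)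
        * (ee N (s + 1) * (ee N (a + b + 1 + 1) * XX N (n + 1) adj))
        * qn N (a + 1) * qq N ^ (a + b + 1) * qn N (s + 1)) * h4
    + (qq N ^ k * qn N c * qf N (a + b)
        * (ee N (s + 1) * (ee N (a + b + 1 + 1) * XX N (n + 1) adj))
        * qn N (a + 1) * qq N ^ (a + b + 1) * qn N (b + 1)) * h5

/-- the truncated `theta` with `K = s` is `e`-positive for every `s`. -/
theorem TT_pos_all (R m : ℕ) : EPos (R + m + 1) (fun N => TT N R m m) := by
  by_cases hm : 2 * m ≤ R + m + 3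
  · exact TT_pos R m m hm
  · have h1 : EPos (R + m + 1) (fun N => (qq N ^ (R + 1) * qn N (m - (R + 1)))
        * (ee N m * ee N (R + 1))) :=
      EPos.smul (QPos.mul (QPos.of_qq_pow _) (QPos.of_qn _))
        (EPos.cast (by omega) (EPos.ee_mul m (ee_pos (R + 1))))
    refine EPos.congr (fun N => ?_) (EPos.add (theta_pos R m) h1)
    rw [theta_eq_TT]
    have h3 := qn_add N (R + 1) (m - (R + 1))
    have e3 : R + 1 + (m - (R + 1)) = m := by omega
    rw [e3] at h3
    rw [h3]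
    ring

theorem InC_dB_aux (n : ℕ) (adj : ℕ → ℕ → Prop) (h : InC n adj) (j0 i k : ℕ) (hj0 : 1 ≤ j0)
    (hi : 1 ≤ i) (hk : k ≤ i) :
    InC (n + (j0 + i) + 1) (dadj n adj (j0 + i) (j0 + k) i) := by
  obtain ⟨a, rfl⟩ : ∃ a, j0 = a + 1 := ⟨j0 - 1, by omega⟩
  obtain ⟨b, rfl⟩ : ∃ b, i = b + 1 := ⟨i - 1, by omega⟩
  obtain ⟨c, hkc⟩ : ∃ c, k + c = b + 1 := ⟨b + 1 - k, by omega⟩
  intro s
  have hX : EPos (n + 1 + 0) (fun N => XX N (n + 1) adj) := h 0
  set d := n + (a + 1 + (b + 1)) + 1 + 1 + s with hd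
  have t0 : EPos d (fun N => (qn N k * qf N (a + b + 1)) *
      AMinus N n adj (a + b + 1 + 1) (s + 1)) :=
    EPos.smul (QPos.mul (QPos.of_qn _) (QPos.of_qf _))
      (EPos.cast (by omega) (AMinus_pos n adj h (a + b + 1 + 1) (s + 1)))
  have t1 : EPos d (fun N => (qq N ^ (b + 1) * qn N (a + 1) * qn N (s + 1) * qn N (k + a)) *
      (ee N (s + 1) * alpha N (a + b + 1 + 1) n adj)) :=
    EPos.smul (QPos.mul (QPos.mul (QPos.mul (QPos.of_qq_pow _) (QPos.of_qn _)) (QPos.of_qn _))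
      (QPos.of_qn _))
      (EPos.cast (by omega) (EPos.ee_mul (s + 1) (h (a + b + 1 + 1))))
  have t2 : EPos d (fun N => qn N (a + 1) * GG N n adj (a + b + 1) (s + 1 + 1) (s + 1)) :=
    EPos.smul (QPos.of_qn _)
      (EPos.cast (by omega) (GG_pos n adj h (a + b + 1) (s + 1 + 1) (s + 1) (by omega)))
  have t3 : EPos d (fun N => (qq N ^ (a + 1) * qn N b) *
      (XX N (n + 1) adj * TT N (a + b + 1) (s + 1) (s + 1))) :=
    EPos.smul (QPos.mul (QPos.of_qq_pow _) (QPos.of_qn _))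
      (EPos.cast (by omega) (EPos.mul hX (TT_pos_all (a + b + 1) (s + 1))))
  have t4 : EPos d (fun N => (qn N (a + 1) * qq N ^ (a + b + 1 + 1) * qn N s) *
      (ee N (s + 1) * (ee N (a + b + 1 + 1) * XX N (n + 1) adj))) :=
    EPos.smul (QPos.mul (QPos.mul (QPos.of_qn _) (QPos.of_qq_pow _)) (QPos.of_qn _))
      (EPos.cast (by omega) (EPos.ee_mul (s + 1) (EPos.ee_mul (a + b + 1 + 1) hX)))
  refine EPos.congr (fun N => ?_)
    (EPos.add t0 (EPos.smul (QPos.of_qf (a + b)) (EPos.add t1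
      (EPos.smul (QPos.mul (QPos.of_qq_pow k) (QPos.of_qn c)) (EPos.add (EPos.add t2 t3) t4)))))
  rw [alpha_dB_formula N n adj a b k c s hkc]

end Vale.Agent.P066
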