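import Vale.Agent.P066.DPosA
import Vale.Agent.P066.DPosB

/-!
# P066: the class `InC` is closed under gluing a block whose interior is a clique
-/

namespace Vale.Agent.P066

open MvPolynomial Finset

/-- Case A: `1 ≤ j`, `1 ≤ i`, `i + j ≤ p`. -/
theorem InC_dA (n : ℕ) (adj : ℕ → ℕ → Prop) (h : InC n adj) (j l i : ℕ) (hj : 1 ≤ j) (hi : i ≤ l) :
    InC (n + (j + l) + 1) (dadj n adj (j + l) j i) :=
  InC_dA_aux n adj h j l i hj hi

/-- Case B: `p = j0 + i`, `j = j0 + k`, `1 ≤ j0`, `k ≤ i`, `1 ≤ i`. -/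
theorem InC_dB (n : ℕ) (adj : ℕ → ℕ → Prop) (h : InC n adj) (j0 i k : ℕ) (hj0 : 1 ≤ j0)
    (hi : 1 ≤ i) (hk : k ≤ i) :
    InC (n + (j0 + i) + 1) (dadj n adj (j0 + i) (j0 + k) i) :=
  InC_dB_aux n adj h j0 i k hj0 hi hk

end Vale.Agent.P066
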