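import Vale.Agent.P066.Alpha

/-!
# P066: the transfer formula for gluing a clique, and for melted blocks
-/

namespace Vale.Agent.P066

open MvPolynomial Finset

/-- untruncated transfer expression. -/
noncomputable def Psi (N n : ℕ) (adj : ℕ → ℕ → Prop) (R S : ℕ) : RR N :=
  ∑ k ∈ range (S + 1), (qn N R - qn N k) * ee N k * alpha N (R + S - k) n adj
    + qq N ^ R * ∑ i ∈ range (S + 1), qn N (S - i) * ee N (R + S - i) * alpha N i n adj

/-- `theta p s = X(K_{p+1} ∘ K_{s+1}) / ([p]! [s]!)`, untruncated form. -/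
noncomputable def theta (N p s : ℕ) : RR N :=
  ∑ k ∈ range (s + 1), (qn N (p + s + 1 - k) - qn N k) * ee N k * ee N (p + s + 1 - k)

noncomputable def AMinus (N n : ℕ) (adj : ℕ → ℕ → Prop) (p m : ℕ) : RR N :=
  Psi N n adj p m - (qn N p - qn N m) * ee N m * alpha N p n adj

/-! ### q-integer identities through the fraction field -/

/-- the fraction field of the coefficient ring, used to prove identities between q-integers -/
noncomputable abbrev KK (N : ℕ) := FractionRing (RR N)

noncomputable def iota (N : ℕ) : RR N →+* KK N := algebraMap (RR N) (KK N)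

theorem iota_inj (N : ℕ) : Function.Injective (iota N) := IsFractionRing.injective (RR N) (KK N)

theorem iota_q_ne (N : ℕ) : iota N (qq N) - 1 ≠ 0 := by
  intro h
  apply qq_sub_one_ne_zero N
  apply iota_inj N
  rw [map_sub, map_one, map_zero]
  exact h

theorem iota_qn (N k : ℕ) : iota N (qn N k) = (iota N (qq N) ^ k - 1) / (iota N (qq N) - 1) := by
  rw [eq_div_iff (iota_q_ne N)]
  have := congrArg (iota N) (qn_mul N k)
  simp only [map_mul, map_sub, map_one, map_pow] at this
  rw [mul_comm]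
  exact this

theorem qn_zero (N : ℕ) : qn N 0 = 0 := by simp [qn]

theorem qn_one (N : ℕ) : qn N 1 = 1 := by simp [qn]

theorem ee_zero (N : ℕ) : ee N 0 = 1 := by simp [ee]

theorem qf_succ (N k : ℕ) : qf N (k + 1) = qf N k * qn N (k + 1) := rfl

theorem qn_succ' (N k : ℕ) : qn N (k + 1) = 1 + qq N * qn N k := by
  apply iota_inj N
  simp only [map_mul, map_add, map_one, iota_qn]
  have h := iota_q_ne N
  field_simp
  ring

theorem alpha_succ (N s n : ℕ) (adj : ℕ → ℕ → Prop) :
    alpha N s (n + 1) (melt n adj 1)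
      = alpha N (s + 1) n adj + qq N * qn N s * ee N (s + 1) * XX N (n + 1) adj := by
  simp only [alpha]
  ring

theorem XX_glue_eq' (N s n k : ℕ) (adj : ℕ → ℕ → Prop) (h : k = n + 1 + s) :
    XX N k (melt n adj s) = qf N s * alpha N s n adj := by
  subst h
  exact XX_glue_eq N s n adj

theorem alpha_melt_one (N s n r : ℕ) (adj : ℕ → ℕ → Prop) :
    alpha N s (n + (r + 1) + 1) (melt n adj 1)
      = alpha N s (n + 1 + (r + 1)) (melt (n + 1) (melt n adj 1) (r + 1)) := by
  have e : n + (r + 1) + 1 = n + 1 + (r + 1) := by omega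
  rw [e]
  apply alpha_congr
  intro a b hab hb
  unfold melt
  constructor
  · rintro (⟨h1, h2⟩ | ⟨h1, h2⟩ | h1)
    · exact Or.inl ⟨by omega, Or.inl ⟨h1, h2⟩⟩
    · exact Or.inl ⟨h2, Or.inr (Or.inl ⟨h1, h2⟩)⟩
    · by_cases h : a = n + 1
      · exact Or.inr (Or.inl ⟨h, hb⟩)
      · exact Or.inr (Or.inr (by omega))
  · rintro (⟨-, h⟩ | ⟨h1, -⟩ | h1)
    · exact h
    · exact Or.inr (Or.inr (by omega))
    · exact Or.inr (Or.inr (by omega))

/-- relation between `G1 ∘ K_{m+1}` and `Q`, from (I1) and (I3). -/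
theorem rel_Q (N n : ℕ) (adj : ℕ → ℕ → Prop) (r s : ℕ) :
    qn N (r + 1) * (qf N (s + 1) * alpha N (s + 1) (n + (r + 1)) (melt n adj (r + 1)))
      = qn N (s + 1) * XX N (n + 1 + (r + 1 + 1) + s) (melt (n + (r + 1) + 1) (melt n adj (r + 1)) s)
        + (qn N (r + 1) - qn N (s + 1)) * (qf N (r + 1) * alpha N (r + 1) n adj)
          * (qf N (s + 1) * ee N (s + 1)) := by
  have hA := rel_zadj N n adj (r + 1) s 1 (by omega)
  rw [XX_zadj_one N n adj (r + 1) s (by omega), XX_zadj_full, qn_one, pow_one,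
    Nat.add_sub_cancel, XX_glue_eq] at hA
  have hB := rel_melt N (n + (r + 1)) (melt n adj (r + 1)) (s + 1) 1 (by omega)
  rw [XX_glue_eq, qn_one, pow_one, Nat.add_sub_cancel,
    XX_glue_eq' N (r + 1) n (n + (r + 1) + 1) adj (by omega)] at hB
  have hp := qn_succ' N r
  have hm := qn_succ' N s
  rw [hp] at hA ⊢
  rw [hm] at hB ⊢
  linear_combination (1 + qq N * qn N s) * hA - (1 + qq N * qn N r) * hB

/-- recursion obtained from (I1), (I2), (I3). -/
theorem alpha_rec (N n : ℕ) (adj : ℕ → ℕ → Prop) (r s : ℕ) :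
    qn N (r + 1) * alpha N (s + 1) (n + (r + 1)) (melt n adj (r + 1))
      = qn N (r + 1) * alpha N s (n + 1 + (r + 1)) (melt (n + 1) (melt n adj 1) (r + 1))
        - qq N * qn N r * XX N (n + 1) adj * alpha N s (r + 1) (fun _ _ => True)
        + (qn N (r + 1) - qn N (s + 1)) * qf N (r + 1) * ee N (s + 1) * alpha N (r + 1) n adj := by
  have hQ := rel_Q N n adj r s
  have hC := rel_melt_glue N n adj (r + 1) s 1 (by omega)
  rw [XX_glue_eq' N s (n + (r + 1) + 1) (n + 1 + (r + 1 + 1) + s) (melt n adj 1) (by omega),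
    qn_one, pow_one, Nat.add_sub_cancel, XX_glue_eq, alpha_melt_one] at hC
  apply mul_left_cancel₀ (qf_ne_zero N (s + 1))
  rw [qf_succ] at hQ ⊢
  linear_combination hQ - qn N (s + 1) * hC

theorem Psi_point (N p s : ℕ) (adj : ℕ → ℕ → Prop) :
    Psi N 0 adj p s = qn N p * theta N p s := by
  unfold Psi theta
  simp only [alpha_point]
  have hshift : ∑ i ∈ range (s + 1), qn N (s - i) * ee N (p + s - i) * (qn N (i + 1) * ee N (i + 1))
      = ∑ k ∈ range (s + 1), qn N (s + 1 - k) * qn N k * ee N k * ee N (p + s + 1 - k) := by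
    have h1 := Finset.sum_range_succ
      (fun k => qn N (s + 1 - k) * qn N k * ee N k * ee N (p + s + 1 - k)) (s + 1)
    have h2 := Finset.sum_range_succ'
      (fun k => qn N (s + 1 - k) * qn N k * ee N k * ee N (p + s + 1 - k)) (s + 1)
    simp only [Nat.sub_self, qn_zero, zero_mul, mul_zero, add_zero, Nat.add_sub_add_right] at h1 h2
    rw [← h1, h2]
    refine Finset.sum_congr rfl fun i _ => ?_
    ring
  rw [hshift, Finset.mul_sum, Finset.mul_sum, ← Finset.sum_add_distrib]
  refine Finset.sum_congr rfl fun k hk => ?_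
  obtain ⟨t, rfl⟩ : ∃ t, s = k + t := ⟨s - k, by have := Finset.mem_range.mp hk; omega⟩
  have e1 : p + (k + t) - k + 1 = p + t + 1 := by omega
  have e2 : p + (k + t) + 1 - k = p + t + 1 := by omega
  have e3 : k + t + 1 - k = t + 1 := by omega
  rw [e1, e2, e3]
  apply iota_inj N
  simp only [map_mul, map_add, map_sub, map_pow, iota_qn]
  have h := iota_q_ne N
  field_simp
  ring

/-- the part of `Psi_step` proportional to `X(G)`. -/
theorem step_X (N r s : ℕ) :
    qq N ^ (r + 1) * (qn N (s + 1) * ee N (r + 1 + (s + 1)))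
      = ∑ k ∈ range (s + 1), (qn N (r + 1) - qn N k) * ee N k *
            (qq N * qn N (r + 1 + s - k) * ee N (r + 1 + s - k + 1))
        + qq N ^ (r + 1) * ∑ i ∈ range (s + 1), qn N (s - i) * ee N (r + 1 + s - i) *
            (qq N * qn N i * ee N (i + 1))
        - qq N * qn N r * theta N (r + 1) s := by
  unfold theta
  have hshift : ∑ i ∈ range (s + 1), qn N (s - i) * ee N (r + 1 + s - i) *
        (qq N * qn N i * ee N (i + 1))
      = ∑ k ∈ range (s + 1), qn N (s + 1 - k) * qq N * qn N (k - 1) * ee N k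
          * ee N (r + 1 + s + 1 - k) := by
    have h1 := Finset.sum_range_succ
      (fun k => qn N (s + 1 - k) * qq N * qn N (k - 1) * ee N k * ee N (r + 1 + s + 1 - k)) (s + 1)
    have h2 := Finset.sum_range_succ'
      (fun k => qn N (s + 1 - k) * qq N * qn N (k - 1) * ee N k * ee N (r + 1 + s + 1 - k)) (s + 1)
    simp only [Nat.sub_self, qn_zero, zero_mul, mul_zero, add_zero, Nat.add_sub_add_right,
      Nat.add_sub_cancel, Nat.zero_sub] at h1 h2
    rw [← h1, h2]
    refine Finset.sum_congr rfl fun i _ => ?_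
    ring
  rw [hshift, Finset.mul_sum, Finset.mul_sum, ← Finset.sum_add_distrib,
    ← Finset.sum_sub_distrib, Finset.sum_range_succ']
  have hz : ∑ k ∈ range s,
      ((qn N (r + 1) - qn N (k + 1)) * ee N (k + 1) *
            (qq N * qn N (r + 1 + s - (k + 1)) * ee N (r + 1 + s - (k + 1) + 1)) +
          qq N ^ (r + 1) *
            (qn N (s + 1 - (k + 1)) * qq N * qn N (k + 1 - 1) * ee N (k + 1) *
              ee N (r + 1 + s + 1 - (k + 1))) -
        qq N * qn N r *
          ((qn N (r + 1 + s + 1 - (k + 1)) - qn N (k + 1)) * ee N (k + 1) *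
            ee N (r + 1 + s + 1 - (k + 1)))) = 0 := by
    refine Finset.sum_eq_zero fun k hk => ?_
    obtain ⟨t, rfl⟩ : ∃ t, s = k + 1 + t := ⟨s - (k + 1), by have := Finset.mem_range.mp hk; omega⟩
    have e1 : r + 1 + (k + 1 + t) - (k + 1) = r + 1 + t := by omega
    have e2 : r + 1 + (k + 1 + t) + 1 - (k + 1) = r + 1 + t + 1 := by omega
    have e3 : k + 1 + t + 1 - (k + 1) = t + 1 := by omega
    have e4 : k + 1 - 1 = k := by omega
    rw [e1, e2, e3, e4]
    apply iota_inj N
    simp only [map_mul, map_add, map_sub, map_pow, map_zero, iota_qn]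
    have h := iota_q_ne N
    field_simp
    ring
  rw [hz, zero_add]
  simp only [Nat.sub_zero, qn_zero, ee_zero, Nat.zero_sub]
  have e5 : r + 1 + (s + 1) = r + 1 + s + 1 := by omega
  rw [e5]
  apply iota_inj N
  simp only [map_mul, map_add, map_sub, map_pow, map_zero, map_one, iota_qn]
  have h := iota_q_ne N
  field_simp
  ring

theorem Psi_melt_one (N n : ℕ) (adj : ℕ → ℕ → Prop) (r s : ℕ) :
    Psi N (n + 1) (melt n adj 1) (r + 1) s
      = (∑ k ∈ range (s + 1), (qn N (r + 1) - qn N k) * ee N k * alpha N (r + 1 + s - k + 1) n adj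
          + (∑ k ∈ range (s + 1), (qn N (r + 1) - qn N k) * ee N k *
            (qq N * qn N (r + 1 + s - k) * ee N (r + 1 + s - k + 1))) * XX N (n + 1) adj)
        + qq N ^ (r + 1) *
          (∑ i ∈ range (s + 1), qn N (s - i) * ee N (r + 1 + s - i) * alpha N (i + 1) n adj
          + (∑ i ∈ range (s + 1), qn N (s - i) * ee N (r + 1 + s - i) *
            (qq N * qn N i * ee N (i + 1))) * XX N (n + 1) adj) := by
  have h1 : ∑ k ∈ range (s + 1), (qn N (r + 1) - qn N k) * ee N k
        * alpha N (r + 1 + s - k) (n + 1) (melt n adj 1)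
      = ∑ k ∈ range (s + 1), (qn N (r + 1) - qn N k) * ee N k * alpha N (r + 1 + s - k + 1) n adj
          + (∑ k ∈ range (s + 1), (qn N (r + 1) - qn N k) * ee N k *
            (qq N * qn N (r + 1 + s - k) * ee N (r + 1 + s - k + 1))) * XX N (n + 1) adj := by
    rw [Finset.sum_mul, ← Finset.sum_add_distrib]
    refine Finset.sum_congr rfl fun k _ => ?_
    rw [alpha_succ]
    ring
  have h2 : ∑ i ∈ range (s + 1), qn N (s - i) * ee N (r + 1 + s - i)
        * alpha N i (n + 1) (melt n adj 1)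
      = ∑ i ∈ range (s + 1), qn N (s - i) * ee N (r + 1 + s - i) * alpha N (i + 1) n adj
          + (∑ i ∈ range (s + 1), qn N (s - i) * ee N (r + 1 + s - i) *
            (qq N * qn N i * ee N (i + 1))) * XX N (n + 1) adj := by
    rw [Finset.sum_mul, ← Finset.sum_add_distrib]
    refine Finset.sum_congr rfl fun k _ => ?_
    rw [alpha_succ]
    ring
  unfold Psi
  rw [h1, h2]

theorem Psi_succ_split (N n : ℕ) (adj : ℕ → ℕ → Prop) (r s : ℕ) :
    Psi N n adj (r + 1) (s + 1)
      = (∑ k ∈ range (s + 1), (qn N (r + 1) - qn N k) * ee N k * alpha N (r + 1 + s - k + 1) n adj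
          + (qn N (r + 1) - qn N (s + 1)) * ee N (s + 1) * alpha N (r + 1) n adj)
        + qq N ^ (r + 1) *
          (∑ i ∈ range (s + 1), qn N (s - i) * ee N (r + 1 + s - i) * alpha N (i + 1) n adj
          + qn N (s + 1) * ee N (r + 1 + (s + 1)) * XX N (n + 1) adj) := by
  have h1 : ∑ k ∈ range (s + 1 + 1), (qn N (r + 1) - qn N k) * ee N k
        * alpha N (r + 1 + (s + 1) - k) n adj
      = ∑ k ∈ range (s + 1), (qn N (r + 1) - qn N k) * ee N k * alpha N (r + 1 + s - k + 1) n adj
          + (qn N (r + 1) - qn N (s + 1)) * ee N (s + 1) * alpha N (r + 1) n adj := by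
    rw [Finset.sum_range_succ, Nat.add_sub_cancel]
    have : ∑ k ∈ range (s + 1), (qn N (r + 1) - qn N k) * ee N k
          * alpha N (r + 1 + (s + 1) - k) n adj
        = ∑ k ∈ range (s + 1), (qn N (r + 1) - qn N k) * ee N k
          * alpha N (r + 1 + s - k + 1) n adj := by
      refine Finset.sum_congr rfl fun k hk => ?_
      have : r + 1 + (s + 1) - k = r + 1 + s - k + 1 := by
        have := Finset.mem_range.mp hk
        omega
      rw [this]
    rw [this]
  have h2 : ∑ i ∈ range (s + 1 + 1), qn N (s + 1 - i) * ee N (r + 1 + (s + 1) - i)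
        * alpha N i n adj
      = ∑ i ∈ range (s + 1), qn N (s - i) * ee N (r + 1 + s - i) * alpha N (i + 1) n adj
          + qn N (s + 1) * ee N (r + 1 + (s + 1)) * XX N (n + 1) adj := by
    rw [Finset.sum_range_succ']
    have : ∑ i ∈ range (s + 1), qn N (s + 1 - (i + 1)) * ee N (r + 1 + (s + 1) - (i + 1))
          * alpha N (i + 1) n adj
        = ∑ i ∈ range (s + 1), qn N (s - i) * ee N (r + 1 + s - i) * alpha N (i + 1) n adj := by
      refine Finset.sum_congr rfl fun i _ => ?_
      have e1 : s + 1 - (i + 1) = s - i := by omega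
      have e2 : r + 1 + (s + 1) - (i + 1) = r + 1 + s - i := by omega
      rw [e1, e2]
    rw [this]
    rfl
  unfold Psi
  rw [h1, h2]

/-- algebraic step of the induction. -/
theorem Psi_step (N n : ℕ) (adj : ℕ → ℕ → Prop) (r s : ℕ) :
    Psi N n adj (r + 1) (s + 1)
      = Psi N (n + 1) (melt n adj 1) (r + 1) s
        - qq N * qn N r * XX N (n + 1) adj * theta N (r + 1) s
        + (qn N (r + 1) - qn N (s + 1)) * ee N (s + 1) * alpha N (r + 1) n adj := by
  have hX := step_X N r s
  rw [Psi_succ_split, Psi_melt_one]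
  generalize (∑ k ∈ range (s + 1), (qn N (r + 1) - qn N k) * ee N k *
            (qq N * qn N (r + 1 + s - k) * ee N (r + 1 + s - k + 1))) = B1 at hX ⊢
  generalize (∑ i ∈ range (s + 1), qn N (s - i) * ee N (r + 1 + s - i) *
            (qq N * qn N i * ee N (i + 1))) = B2 at hX ⊢
  generalize (∑ k ∈ range (s + 1), (qn N (r + 1) - qn N k) * ee N k
    * alpha N (r + 1 + s - k + 1) n adj) = A1
  generalize (∑ i ∈ range (s + 1), qn N (s - i) * ee N (r + 1 + s - i)
    * alpha N (i + 1) n adj) = A2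
  linear_combination (XX N (n + 1) adj) * hX

theorem Psi_zero (N n : ℕ) (adj : ℕ → ℕ → Prop) (R : ℕ) :
    Psi N n adj R 0 = qn N R * alpha N R n adj := by
  unfold Psi
  simp [qn_zero, ee_zero]

theorem alpha_true_eq (N r s : ℕ) (adj : ℕ → ℕ → Prop) :
    alpha N s (r + 1) (fun _ _ => True) = alpha N s (0 + (r + 1)) (melt 0 adj (r + 1)) := by
  have e : 0 + (r + 1) = r + 1 := by omega
  rw [e]
  apply alpha_congr
  intro a b hab hb
  unfold melt
  constructor
  · intro _
    by_cases h : a = 0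
    · exact Or.inr (Or.inl ⟨h, by omega⟩)
    · exact Or.inr (Or.inr (by omega))
  · intro _
    trivial

/-- transfer formula: `alpha s (G ∘ K_{r+2}) = [r]! Psi(G; r+1, s)`. -/
theorem transfer (N n : ℕ) (adj : ℕ → ℕ → Prop) (r s : ℕ) :
    alpha N s (n + (r + 1)) (melt n adj (r + 1)) = qf N r * Psi N n adj (r + 1) s := by
  induction s generalizing n adj with
  | zero =>
    rw [Psi_zero]
    have h : alpha N 0 (n + (r + 1)) (melt n adj (r + 1))
        = XX N (n + (r + 1) + 1) (melt n adj (r + 1)) := rfl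
    rw [h, XX_glue_eq' N (r + 1) n (n + (r + 1) + 1) adj (by omega), qf_succ]
    ring
  | succ s ih =>
    have hrec := alpha_rec N n adj r s
    rw [ih (n + 1) (melt n adj 1), alpha_true_eq N r s adj, ih 0 adj, Psi_point] at hrec
    apply mul_left_cancel₀ (qn_ne_zero N (r + 1) (Nat.succ_pos r))
    rw [hrec, Psi_step, qf_succ]
    ring

/-- `X(K_{r+2} ∘ K_{s+1})`. -/
theorem alpha_complete (N r s : ℕ) :
    alpha N s (r + 1) (fun _ _ => True) = qf N (r + 1) * theta N (r + 1) s := by
  rw [alpha_true_eq N r s (fun _ _ => True), transfer, Psi_point, qf_succ]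
  ring

theorem XX_Q (N n : ℕ) (adj : ℕ → ℕ → Prop) (r s : ℕ) :
    XX N (n + 1 + (r + 1 + 1) + s) (melt (n + (r + 1) + 1) (melt n adj (r + 1)) s)
      = qf N (r + 1) * qf N s * AMinus N n adj (r + 1) (s + 1) := by
  have hQ := rel_Q N n adj r s
  rw [transfer] at hQ
  apply mul_left_cancel₀ (qn_ne_zero N (s + 1) (Nat.succ_pos s))
  unfold AMinus
  rw [qf_succ, qf_succ] at hQ
  rw [qf_succ]
  linear_combination - hQ

/-- front-melted block. -/
theorem alpha_front (N n : ℕ) (adj : ℕ → ℕ → Prop) (r j s : ℕ) (hj : j ≤ r + 1) :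
    alpha N s (n + (r + 1) + 1) (melt n adj j)
      = qf N r * (qn N j * AMinus N n adj (r + 1) (s + 1)
          + qq N ^ j * qn N (r + 1 - j) * XX N (n + 1) adj * theta N (r + 1) s) := by
  have hC := rel_melt_glue N n adj (r + 1) s j hj
  rw [XX_glue_eq' N s (n + (r + 1) + 1) (n + 1 + (r + 1 + 1) + s) (melt n adj j) (by omega),
    XX_Q, XX_glue_eq, alpha_complete] at hC
  apply mul_left_cancel₀ (mul_ne_zero (qn_ne_zero N (r + 1) (Nat.succ_pos r)) (qf_ne_zero N s))
  rw [qf_succ] at hC
  linear_combination hC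

/-- back-melted block. -/
theorem alpha_back (N n : ℕ) (adj : ℕ → ℕ → Prop) (r i s : ℕ) (hi : i ≤ r + 1) :
    alpha N s (n + (r + 1) + 1) (zadj n adj (r + 1) i)
      = qf N r * (qn N i * AMinus N n adj (r + 1) (s + 1)
          + qq N ^ i * qn N (r + 1 - i) * qn N (s + 1) * ee N (s + 1) * alpha N (r + 1) n adj) := by
  have hC := rel_zadj N n adj (r + 1) s i hi
  rw [← XX_zadj_glue, XX_glue_eq, XX_zadj_full, XX_Q, XX_glue_eq] at hC
  apply mul_left_cancel₀ (mul_ne_zero (qn_ne_zero N (r + 1) (Nat.succ_pos r)) (qf_ne_zero N s))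
  rw [qf_succ, qf_succ] at hC
  linear_combination hC

end Vale.Agent.P066
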