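import Vale.Agent.P066.DOps
import Vale.Agent.P066.Transfer

/-!
# P066: transfer formulas for the blocks `dadj`
-/

namespace Vale.Agent.P066

open MvPolynomial Finset

private theorem qn_add_dt (N a b : ℕ) : qn N (a + b) = qn N a + qq N ^ a * qn N b := by
  unfold qn
  rw [Finset.sum_range_add, Finset.mul_sum]
  simp only [pow_add]

/-- `i = 0`: disjoint union of the front-melted block and a clique. -/
private theorem XX_dadj_zero (N n : ℕ) (adj : ℕ → ℕ → Prop) (p j m : ℕ) (hj : j ≤ p) :
    XX N (n + 1 + p + (m + 1)) (dadj n adj p j 0)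
      = XX N (n + 1 + p) (melt n adj j) * (qf N (m + 1) * ee N (m + 1)) := by
  rw [XX_mul N (n + 1 + p) (m + 1) (dadj n adj p j 0)
    (by intro a b ha hb _; unfold dadj; omega)]
  rw [XX_congr N (n + 1 + p) (dadj n adj p j 0) (melt n adj j) (fun a b hab hb => by
    unfold dadj melt
    constructor
    · rintro (h | h | h | h | h)
      · exact Or.inl h
      · exact Or.inr (Or.inl h)
      · exact Or.inr (Or.inr h.1)
      · omega
      · omega
    · rintro (h | h | h)
      · exact Or.inl h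
      · exact Or.inr (Or.inl h)
      · exact Or.inr (Or.inr (Or.inl ⟨h, by omega⟩)))]
  rw [XX_complete N (m + 1) _ (fun a b _ _ => by unfold dadj; omega)]

/-- the block `dadj` in terms of `alpha`. -/
private theorem XX_dadj_alpha (N n : ℕ) (adj : ℕ → ℕ → Prop) (p j i s : ℕ) (hj : j ≤ p) :
    XX N (n + 1 + p + (s + 1)) (dadj n adj p j i)
      = qf N s * alpha N s (n + p + 1) (dadj n adj p j i) := by
  rw [← XX_dadj_glue N n adj p j i s hj, XX_glue_eq]

/-- Case A (`i + j ≤ p`, written `p = j + l`, `i ≤ l`). -/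
theorem alpha_dA (N n : ℕ) (adj : ℕ → ℕ → Prop) (j l i s : ℕ) (hi : i ≤ l) :
    alpha N s (n + (j + l) + 1) (dadj n adj (j + l) j i)
      = qn N i * alpha N (s + 1) (n + (j + l)) (melt n adj j)
        + (qn N (s + 1) - qn N i) * ee N (s + 1) * alpha N 0 (n + (j + l)) (melt n adj j) := by
  have hX0 : alpha N 0 (n + (j + l)) (melt n adj j) = XX N (n + 1 + (j + l)) (melt n adj j) := by
    simp only [alpha]
    rw [show n + (j + l) + 1 = n + 1 + (j + l) by omega]
  rcases Nat.eq_zero_or_pos l with hl | hl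
  · -- `l = 0`, hence `i = 0`
    subst hl
    obtain rfl : i = 0 := by omega
    have h0 := XX_dadj_zero N n adj (j + 0) j s (by omega)
    rw [XX_dadj_alpha N n adj (j + 0) j 0 s (by omega), ← hX0, qf_succ] at h0
    apply mul_left_cancel₀ (qf_ne_zero N s)
    rw [qn_zero]
    linear_combination h0
  · have hA := rel_dadj_col N n adj j l s i hi
    have hB := rel_dadj_col N n adj j l s 1 hl
    rw [XX_dadj_alpha N n adj (j + l) j i s (by omega), ← hX0] at hA
    rw [XX_dadj_one N n adj (j + l) j s (by omega), ← hX0, qn_one, pow_one] at hB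
    have hC := rel_melt N (n + (j + l)) (melt n adj j) (s + 1) 1 (by omega)
    rw [XX_glue_eq, qn_one, pow_one, Nat.add_sub_cancel,
      show n + (j + l) + 1 = n + 1 + (j + l) by omega, ← hX0] at hC
    rw [show n + 1 + (j + l) + (s + 1) = n + (j + l) + 1 + (s + 1) by omega] at hC
    obtain ⟨l', rfl⟩ : ∃ l', l = l' + 1 := ⟨l - 1, by omega⟩
    obtain ⟨t, ht⟩ : ∃ t, l' + 1 = i + t := ⟨l' + 1 - i, by omega⟩
    have e1 : l' + 1 - i = t := by omega
    have e2 : l' + 1 - 1 = l' := by omega
    rw [e1] at hA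
    rw [e2] at hB
    have q1 : qn N (l' + 1) = qn N i + qq N ^ i * qn N t := by rw [ht, qn_add_dt]
    have q2 := qn_succ' N l'
    have q3 := qn_succ' N s
    apply mul_left_cancel₀ (mul_ne_zero (mul_ne_zero (qn_ne_zero N (l' + 1) (Nat.succ_pos l'))
      (qn_ne_zero N (s + 1) (Nat.succ_pos s))) (qf_ne_zero N s))
    rw [qf_succ] at hA hB hC
    linear_combination qn N (s + 1) * hA - qn N (s + 1) * qn N i * hB
      + qn N i * qn N (l' + 1) * hC
      - qn N (s + 1) * (alpha N 0 (n + (j + (l' + 1))) (melt n adj j)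
          * (qf N s * qn N (s + 1) * ee N (s + 1))) * q1
      + qn N (s + 1) * qn N i * (alpha N 0 (n + (j + (l' + 1))) (melt n adj j)
          * (qf N s * qn N (s + 1) * ee N (s + 1))) * q2
      - qn N i * qn N (l' + 1) * (alpha N 0 (n + (j + (l' + 1))) (melt n adj j)
          * (qf N s * qn N (s + 1) * ee N (s + 1))) * q3

/-- Case B (`p = j0 + i`, `j = j0 + k`, `k ≤ i`). -/
theorem alpha_dB (N n : ℕ) (adj : ℕ → ℕ → Prop) (j0 i k s : ℕ) (hk : k ≤ i) :
    qn N i * alpha N s (n + (j0 + i) + 1) (dadj n adj (j0 + i) (j0 + k) i)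
      = qn N k * alpha N s (n + (j0 + i) + 1) (zadj n adj (j0 + i) i)
        + qq N ^ k * qn N (i - k) * alpha N s (n + (j0 + i) + 1) (dadj n adj (j0 + i) j0 i) := by
  have h := rel_dadj_row N n adj j0 i s k hk
  rw [XX_dadj_full N n adj (j0 + i) i s (by omega),
    XX_dadj_alpha N n adj (j0 + i) (j0 + k) i s (by omega),
    XX_dadj_alpha N n adj (j0 + i) j0 i s (by omega),
    ← XX_zadj_glue, XX_glue_eq] at h
  apply mul_left_cancel₀ (qf_ne_zero N s)
  linear_combination h

end Vale.Agent.P066
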