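import Vale.Agent.P066.Defs

/-!
# P066: multiplicativity of `XX` over disjoint unions (second part after the first)
-/

namespace Vale.Agent.P066

open MvPolynomial Finset

theorem XX_mul (N n1 n2 : ℕ) (adj : ℕ → ℕ → Prop)
    (hno : ∀ a b, a < n1 → n1 ≤ b → b < n1 + n2 → ¬ adj a b) :
    XX N (n1 + n2) adj = XX N n1 adj * XX N n2 (fun a b => adj (n1 + a) (n1 + b)) := by
  classical
  unfold XX
  rw [← (Fin.appendEquiv (α := Fin N) n1 n2).sum_comp, Fintype.sum_prod_type,
    Finset.sum_mul_sum]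
  refine Finset.sum_congr rfl fun f _ => Finset.sum_congr rfl fun g _ => ?_
  unfold wt
  simp only [Fin.appendEquiv_apply, Fin.prod_univ_add, Fin.append_left, Fin.append_right]
  have h1 : ∀ a : Fin n1, ∀ b : Fin n2,
      (if (Fin.castAdd n2 a < Fin.natAdd n1 b ∧
        adj ((Fin.castAdd n2 a : Fin (n1 + n2)) : ℕ) ((Fin.natAdd n1 b : Fin (n1 + n2)) : ℕ))
        then phi N (f a) (g b) else 1) = 1 := by
    intro a b
    rw [if_neg]
    rintro ⟨-, h⟩
    exact hno _ _ (by simp) (by simp) (Fin.natAdd n1 b).2 h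
  have h2 : ∀ a : Fin n2, ∀ b : Fin n1,
      (if (Fin.natAdd n1 a < Fin.castAdd n2 b ∧
        adj ((Fin.natAdd n1 a : Fin (n1 + n2)) : ℕ) ((Fin.castAdd n2 b : Fin (n1 + n2)) : ℕ))
        then phi N (g a) (f b) else 1) = 1 := by
    intro a b
    rw [if_neg]
    rintro ⟨h, -⟩
    rw [Fin.lt_def] at h
    simp only [Fin.val_natAdd, Fin.val_castAdd] at h
    have := b.2
    omega
  simp only [h1, h2, Finset.prod_const_one, mul_one, one_mul]
  have h3 : ∀ a b : Fin n1, (Fin.castAdd n2 a < Fin.castAdd n2 b) ↔ a < b := by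
    intro a b
    rw [Fin.lt_def, Fin.lt_def, Fin.val_castAdd, Fin.val_castAdd]
  have h4 : ∀ a b : Fin n2, (Fin.natAdd n1 a < Fin.natAdd n1 b) ↔ a < b := by
    intro a b
    rw [Fin.lt_def, Fin.lt_def, Fin.val_natAdd, Fin.val_natAdd]
    omega
  simp only [h3, h4, Fin.val_natAdd, Fin.val_castAdd]
  ring

end Vale.Agent.P066
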