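import Vale.Agent.P066.DFinal
import Vale.Agent.P066.Mul

/-!
# P066: dropping connectivity; the intrinsic form of the family
-/

namespace Vale.Agent.P066

open MvPolynomial Finset

/-- disjoint union with a new vertex carrying a clique. -/
theorem alpha_disj (N n : ℕ) (adj : ℕ → ℕ → Prop) (s : ℕ) :
    alpha N s (n + 1) (melt n adj 0) = qn N (s + 1) * ee N (s + 1) * XX N (n + 1) adj := by
  have h1 := XX_glue_eq N s (n + 1) (melt n adj 0)
  have e : n + 1 + 1 + s = (n + 1) + (s + 1) := by omega
  rw [e, XX_mul N (n + 1) (s + 1) (melt (n + 1) (melt n adj 0) s) (by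
    intro a b ha hb _
    unfold melt
    rintro (⟨h1, h2 | h2 | h2⟩ | h2 | h2) <;> omega)] at h1
  rw [XX_congr N (n + 1) (melt (n + 1) (melt n adj 0) s) adj (fun a b hab hb => by
      rw [melt_low hab (by omega), melt_low hab (by omega)]),
    XX_complete N (s + 1) (fun a b => melt (n + 1) (melt n adj 0) s (n + 1 + a) (n + 1 + b))
      (fun a b hab hb => by
        rw [melt_high (by omega)]
        omega)] at h1
  simp only [qf] at h1
  have h2 : qf N s * (qn N (s + 1) * ee N (s + 1) * XX N (n + 1) adj)
      = qf N s * alpha N s (n + 1) (melt n adj 0) := by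
    rw [← h1]; ring
  exact (mul_left_cancel₀ (qf_ne_zero N s) h2).symm

theorem InC_disj (n : ℕ) (adj : ℕ → ℕ → Prop) (h : InC n adj) : InC (n + 1) (melt n adj 0) := by
  intro s
  have hX : EPos (n + 1 + 0) (fun N => XX N (n + 1) adj) := h 0
  refine EPos.congr (fun N => ?_) (EPos.smul (QPos.of_qn (s + 1))
    (EPos.cast (by omega) (EPos.ee_mul (s + 1) hX)))
  rw [alpha_disj]
  ring

/-- `InC_dblock` with connectivity required inside the block only. -/
theorem InC_gblock (h : ℕ → ℕ) (x y : ℕ) (hxy : x < y) (hlow : ∀ a, a < x → h a ≤ x)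
    (hmono : ∀ a b, a ≤ b → b < y → h a ≤ h b) (hconn : ∀ a, x ≤ a → a < y → a < h a)
    (hcut : ∀ a, a < y → h a ≤ y) (hclq : ∀ a, x < a → a < y → y ≤ h a + 1)
    (hC : InC x (fun a b => b ≤ h a)) :
    InC y (fun a b => b ≤ h a) := by
  by_cases hx : h x = y
  · refine InC_block h x y hxy hlow (Or.inl ⟨hconn x le_rfl hxy, hcut x hxy, fun a ha hay => ?_⟩) hC
    have h1 := hmono x a ha.le hay
    have h2 := hcut a hay
    omega
  have hxlt : h x < y := lt_of_le_of_ne (hcut x hxy) hx
  have hxgt : x < h x := hconn x le_rfl hxy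
  have hex : ∃ a, x < a ∧ a < y ∧ h a = y := by
    refine ⟨y - 1, by omega, by omega, ?_⟩
    have h1 := hconn (y - 1) (by omega) (by omega)
    have h2 := hcut (y - 1) (by omega)
    omega
  classical
  obtain ⟨hxw, hwy, hw⟩ := Nat.find_spec hex
  have hmin : ∀ a, a < Nat.find hex → ¬ (x < a ∧ a < y ∧ h a = y) := fun a ha => Nat.find_min hex ha
  generalize Nat.find hex = w at hxw hwy hw hmin
  have hbelow : ∀ a, x < a → a < w → h a + 1 = y := by
    intro a ha haw
    have h1 := hmin a haw
    have h2 := hcut a (by omega)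
    have h3 := hclq a ha (by omega)
    have h4 : h a ≠ y := fun e => h1 ⟨ha, by omega, e⟩
    omega
  have habove : ∀ a, w ≤ a → a < y → h a = y := by
    intro a ha hay
    have h1 := hmono w a ha hay
    have h2 := hcut a hay
    omega
  by_cases hw1 : w = x + 1
  · exact InC_block h x y hxy hlow
      (Or.inl ⟨hxgt, hxlt.le, fun a ha hay => habove a (by omega) hay⟩) hC
  have hcongr : ∀ p j i, x + p + 1 = y → x + j = h x → w + i = y → ∀ a b, a < b → b ≤ y →
      (dadj x (fun a b => b ≤ h a) p j i a b ↔ b ≤ h a) := by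
    intro p j i hp hj hi a b hab hby
    simp only [dadj]
    rcases lt_trichotomy a x with ha | ha | ha
    · have := hlow a ha
      omega
    · subst ha
      omega
    · rcases lt_or_ge a w with haw | haw
      · have := hbelow a ha haw
        omega
      · have := habove a haw (by omega)
        omega
  by_cases hij : (y - w) + (h x - x) ≤ y - x - 1
  · have hA := InC_dA x (fun a b => b ≤ h a) hC (h x - x) (y - x - 1 - (h x - x)) (y - w)
      (by omega) (by omega)
    have e1 : x + (h x - x + (y - x - 1 - (h x - x))) + 1 = y := by omega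
    rw [e1] at hA
    exact InC_congr y _ _ (hcongr _ _ _ (by omega) (by omega) (by omega)) hA
  · have hB := InC_dB x (fun a b => b ≤ h a) hC (y - x - 1 - (y - w)) (y - w)
      (h x - x - (y - x - 1 - (y - w))) (by omega) (by omega) (by omega)
    have e1 : x + (y - x - 1 - (y - w) + (y - w)) + 1 = y := by omega
    rw [e1] at hB
    exact InC_congr y _ _ (hcongr _ _ _ (by omega) (by omega) (by omega)) hB

/-- The intrinsic form: any two non-adjacent vertices `a < b` are weakly separated by a vertex
`s` over which no edge jumps. -/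
theorem InC_sep (n : ℕ) (h : ℕ → ℕ) (hmono : ∀ a b, a ≤ b → b ≤ n → h a ≤ h b)
    (hself : ∀ a, a ≤ n → a ≤ h a)
    (hsep : ∀ a b, a < b → b ≤ n → h a < b → ∃ s, a ≤ s ∧ s ≤ b ∧ ∀ x, x < s → h x ≤ s) :
    ∀ y, y ≤ n → (∀ x, x < y → h x ≤ y) → InC y (fun a b => b ≤ h a) := by
  classical
  intro y
  induction y using Nat.strong_induction_on with
  | _ y ih =>
    intro hyn hPy
    rcases Nat.eq_zero_or_pos y with rfl | hy0
    · exact InC_point _
    have hP0 : (fun s => ∀ x, x < s → h x ≤ s) 0 := fun x hx => absurd hx (Nat.not_lt_zero x)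
    have hspec := Nat.findGreatest_spec (P := fun s => ∀ x, x < s → h x ≤ s) (Nat.zero_le (y - 1)) hP0
    have hle := Nat.findGreatest_le (P := fun s => ∀ x, x < s → h x ≤ s) (y - 1)
    have hgr : ∀ k, Nat.findGreatest (fun s => ∀ x, x < s → h x ≤ s) (y - 1) < k → k ≤ y - 1 →
        ¬ (∀ x, x < k → h x ≤ k) := fun k hk hkb => Nat.findGreatest_is_greatest hk hkb
    generalize Nat.findGreatest (fun s => ∀ x, x < s → h x ≤ s) (y - 1) = x at hspec hle hgr
    have hxy : x < y := by omega
    have hC := ih x hxy (by omega) hspec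
    by_cases hx : h x = x
    · have hy : y = x + 1 := by
        by_contra hne
        refine hgr (x + 1) (by omega) (by omega) fun a ha => ?_
        have := hmono a x (by omega) (by omega)
        omega
      subst hy
      refine InC_congr (x + 1) _ _ (fun a b hab hb => ?_) (InC_disj x _ hC)
      rcases Nat.lt_or_ge x b with hxb | hxb
      · rw [melt_high hxb]
        have := hmono a x (by omega) (by omega)
        omega
      · rw [melt_low hab hxb]
    · have hxx := hself x (by omega)
      refine InC_gblock h x y hxy hspec (fun a b hab hb => hmono a b hab (by omega)) ?_ hPy ?_ hC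
      · intro a hxa hay
        rcases Nat.eq_or_lt_of_le hxa with rfl | hxa'
        · omega
        · by_contra hcon
          have haa := hself a (by omega)
          refine hgr a hxa' (by omega) fun b hb => ?_
          have := hmono b a (by omega) (by omega)
          omega
      · intro a hxa hay
        by_contra hcon
        have haa := hself a (by omega)
        obtain ⟨s, has, hsb, hs⟩ := hsep a (y - 1) (by omega) (by omega) (by omega)
        exact hgr s (by omega) hsb hs

theorem sep_epos (n : ℕ) (h : ℕ → ℕ) (hmono : ∀ a b, a ≤ b → b ≤ n → h a ≤ h b)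
    (hrange : ∀ a, a ≤ n → a ≤ h a ∧ h a ≤ n)
    (hsep : ∀ a b, a < b → b ≤ n → h a < b → ∃ s, a ≤ s ∧ s ≤ b ∧ ∀ x, x < s → h x ≤ s) :
    ∃ c : Nat.Partition (n + 1) → Polynomial ℕ,
      (∀ N, chromQ (n + 1) h N
        = ∑ p : Nat.Partition (n + 1), C ((c p).map (Nat.castRingHom ℤ)) * ePart N p) ∧
      ∀ c' : Nat.Partition (n + 1) → Polynomial ℤ,
        (∀ N, chromQ (n + 1) h N = ∑ p : Nat.Partition (n + 1), C (c' p) * ePart N p) →
        ∀ p, c' p = (c p).map (Nat.castRingHom ℤ) := by
  have hC := InC_sep n h hmono (fun a ha => (hrange a ha).1) hsep n le_rfl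
    (fun x hx => (hrange x hx.le).2)
  obtain ⟨c, hc⟩ := hC 0
  have hc' : ∀ N, chromQ (n + 1) h N
      = ∑ p : Nat.Partition (n + 1), C ((c p).map (Nat.castRingHom ℤ)) * ePart N p := by
    intro N
    rw [chromQ_eq_XX]
    exact hc N
  refine ⟨c, hc', fun c' hc2 p => ?_⟩
  have := ePart_unique (n + 1) c' (fun p => (c p).map (Nat.castRingHom ℤ))
    ((hc2 (n + 1)).symm.trans (hc' (n + 1)))
  exact congrFun this p

end Vale.Agent.P066
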