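import Mathlib

/-!
# P066: from the three-term law to the local linear relation (pure algebra)
-/

namespace Vale.Agent.P066

open Finset

theorem affine_of_three_term {R : Type*} [CommRing R] (q : R) (l : ℕ) (χ : ℕ → R)
    (h : ∀ k, k + 2 ≤ l → (1 + q) * χ (k + 1) = q * χ k + χ (k + 2)) :
    ∀ k, k ≤ l → χ k = χ 0 + (∑ i ∈ range k, q ^ i) * (χ 1 - χ 0) := by
  intro k
  induction k using Nat.twoStepInduction with
  | zero => intro _; simp
  | one => intro _; simp
  | more k ih0 ih1 =>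
    intro hk
    have h0 := ih0 (by omega)
    have h1 := ih1 (by omega)
    have h2 := h k hk
    have e : χ (k + 2) = (1 + q) * χ (k + 1) - q * χ k := by rw [h2]; ring
    rw [e, h1, h0, Finset.sum_range_succ _ (k + 1), Finset.sum_range_succ _ k]
    ring

theorem local_of_three_term {R : Type*} [CommRing R] (q : R) (l : ℕ) (χ : ℕ → R)
    (h : ∀ k, k + 2 ≤ l → (1 + q) * χ (k + 1) = q * χ k + χ (k + 2)) (k : ℕ) (hk : k ≤ l) :
    (∑ i ∈ range l, q ^ i) * χ k
      = (∑ i ∈ range k, q ^ i) * χ l + q ^ k * (∑ i ∈ range (l - k), q ^ i) * χ 0 := by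
  have hA := affine_of_three_term q l χ h
  have e1 := hA k hk
  have e2 := hA l le_rfl
  have e3 : (∑ i ∈ range l, q ^ i)
      = (∑ i ∈ range k, q ^ i) + q ^ k * (∑ i ∈ range (l - k), q ^ i) := by
    obtain ⟨m, rfl⟩ := Nat.exists_eq_add_of_le hk
    rw [Nat.add_sub_cancel_left, Finset.sum_range_add, Finset.mul_sum]
    simp only [pow_add]
  rw [e1]
  conv_rhs => rw [e2]
  rw [e3]
  ring

end Vale.Agent.P066
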