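import Vale.Agent.P066.Defs

/-!
# P066: the three-term modular law for labelled graphs (colouring level)
-/

namespace Vale.Agent.P066

open MvPolynomial Finset

open Classical in
/-- Product of the edge weights over the pairs selected by a relation on `Fin n`. -/
noncomputable def WW (N n : ℕ) (R : Fin n → Fin n → Prop) (f : Fin n → Fin N) : RR N :=
  ∏ a : Fin n, ∏ b : Fin n, if R a b then phi N (f a) (f b) else 1

theorem wt_eq_WW (N n : ℕ) (adj : ℕ → ℕ → Prop) (f : Fin n → Fin N) :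
    wt N n adj f = WW N n (fun a b => a < b ∧ adj a b) f * ∏ a : Fin n, X (f a) := by
  unfold wt WW
  congr 1
  refine Finset.prod_congr rfl fun a _ => Finset.prod_congr rfl fun b _ => ?_
  by_cases h : a < b ∧ adj a b
  · rw [if_pos h, if_pos h]
  · rw [if_neg h, if_neg h]

theorem WW_congr (N n : ℕ) (R R' : Fin n → Fin n → Prop) (h : ∀ a b, R a b ↔ R' a b)
    (f : Fin n → Fin N) : WW N n R f = WW N n R' f := by
  have : R = R' := by
    funext a b
    exact propext (h a b)
  rw [this]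

theorem WW_add (N n : ℕ) (R R' : Fin n → Fin n → Prop) (a0 b0 : Fin n)
    (h : ∀ a b, R' a b ↔ (R a b ∨ (a = a0 ∧ b = b0))) (hn : ¬ R a0 b0)
    (f : Fin n → Fin N) : WW N n R' f = WW N n R f * phi N (f a0) (f b0) := by
  classical
  have hsingle : (∏ a : Fin n, ∏ b : Fin n,
      if (a = a0 ∧ b = b0) then phi N (f a0) (f b0) else 1) = phi N (f a0) (f b0) := by
    rw [Finset.prod_eq_single a0, Finset.prod_eq_single b0]
    · simp
    · intro b _ hb
      simp [hb]
    · intro hb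
      exact absurd (Finset.mem_univ _) hb
    · intro a _ ha
      refine Finset.prod_eq_one fun b _ => ?_
      simp [ha]
    · intro ha
      exact absurd (Finset.mem_univ _) ha
  unfold WW
  rw [← hsingle, ← Finset.prod_mul_distrib]
  refine Finset.prod_congr rfl fun a _ => ?_
  rw [← Finset.prod_mul_distrib]
  refine Finset.prod_congr rfl fun b _ => ?_
  by_cases hab : a = a0 ∧ b = b0
  · obtain ⟨rfl, rfl⟩ := hab
    rw [if_pos ((h a b).mpr (Or.inr ⟨rfl, rfl⟩)), if_neg hn, if_pos ⟨rfl, rfl⟩, one_mul]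
  · rw [if_neg hab, mul_one]
    by_cases hR : R a b
    · rw [if_pos hR, if_pos ((h a b).mpr (Or.inl hR))]
    · rw [if_neg hR, if_neg]
      intro h'
      rcases (h a b).mp h' with h1 | h1
      · exact hR h1
      · exact hab h1

theorem WW_perm (N n : ℕ) (R : Fin n → Fin n → Prop) (t : Equiv.Perm (Fin n))
    (h : ∀ a b, R (t a) (t b) ↔ R a b) (f : Fin n → Fin N) :
    WW N n R (f ∘ t) = WW N n R f := by
  classical
  unfold WW
  rw [← Equiv.prod_comp t (fun a => ∏ b : Fin n, if R a b then phi N (f a) (f b) else 1)]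
  refine Finset.prod_congr rfl fun a _ => ?_
  rw [← Equiv.prod_comp t (fun b => if R (t a) b then phi N (f (t a)) (f b) else 1)]
  refine Finset.prod_congr rfl fun b _ => ?_
  by_cases hR : R a b
  · rw [if_pos hR, if_pos ((h a b).mpr hR)]
    rfl
  · rw [if_neg hR, if_neg (fun h' => hR ((h a b).mp h'))]

/-- `XX` only depends on the adjacency of pairs `a < b < n`. -/
theorem XX_congr (N n : ℕ) (adj adj' : ℕ → ℕ → Prop)
    (h : ∀ a b, a < b → b < n → (adj a b ↔ adj' a b)) :
    XX N n adj = XX N n adj' := by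
  unfold XX
  refine Finset.sum_congr rfl fun f _ => ?_
  rw [wt_eq_WW, wt_eq_WW]
  congr 1
  refine WW_congr N n _ _ (fun a b => ?_) f
  constructor
  · rintro ⟨h1, h2⟩
    exact ⟨h1, (h a b h1 b.isLt).mp h2⟩
  · rintro ⟨h1, h2⟩
    exact ⟨h1, (h a b h1 b.isLt).mpr h2⟩

theorem alg_row (N : ℕ) (a b c : Fin N) :
    (1 + qq N) * (phi N a b * phi N c a + phi N b a * phi N c b)
      = qq N * (phi N a b + phi N b a) + (phi N a b + phi N b a) * (phi N c a * phi N c b) := by
  unfold phi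
  split_ifs <;> first | (exfalso; omega) | ring1

theorem alg_col (N : ℕ) (a b c : Fin N) :
    (1 + qq N) * (phi N a b * phi N b c + phi N b a * phi N a c)
      = qq N * (phi N a b + phi N b a) + (phi N a b + phi N b a) * (phi N b c * phi N a c) := by
  unfold phi
  split_ifs <;> first | (exfalso; omega) | ring1

/-- Pairing a colouring with its composition with a permutation of the vertices. -/
theorem sum_core (N n : ℕ) (P A0 A1 A2 : (Fin n → Fin N) → RR N) (t : Equiv.Perm (Fin n))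
    (hP : ∀ f, P (f ∘ t) = P f)
    (hrel : ∀ f, (1 + qq N) * (A1 f + A1 (f ∘ t))
      = qq N * (A0 f + A0 (f ∘ t)) + (A2 f + A2 (f ∘ t))) :
    (1 + qq N) * ∑ f, P f * A1 f = qq N * ∑ f, P f * A0 f + ∑ f, P f * A2 f := by
  have hre : ∀ A : (Fin n → Fin N) → RR N, ∑ f, P f * A f = ∑ f, P f * A (f ∘ t) := by
    intro A
    rw [← Equiv.sum_comp (Equiv.arrowCongr t (Equiv.refl (Fin N))).symm
      (fun f => P f * A f)]
    refine Finset.sum_congr rfl fun f _ => ?_
    have : (Equiv.arrowCongr t (Equiv.refl (Fin N))).symm f = f ∘ t := by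
      ext a
      simp [Equiv.arrowCongr]
    rw [this, hP]
  have h2 : ∀ A : (Fin n → Fin N) → RR N,
      2 * ∑ f, P f * A f = ∑ f, P f * (A f + A (f ∘ t)) := by
    intro A
    rw [two_mul]
    nth_rewrite 2 [hre A]
    rw [← Finset.sum_add_distrib]
    refine Finset.sum_congr rfl fun f _ => ?_
    ring
  have key : 2 * ((1 + qq N) * ∑ f, P f * A1 f)
      = 2 * (qq N * ∑ f, P f * A0 f + ∑ f, P f * A2 f) := by
    have e1 : 2 * ((1 + qq N) * ∑ f, P f * A1 f) = (1 + qq N) * (2 * ∑ f, P f * A1 f) := by ring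
    have e2 : 2 * (qq N * ∑ f, P f * A0 f + ∑ f, P f * A2 f)
        = qq N * (2 * ∑ f, P f * A0 f) + 2 * ∑ f, P f * A2 f := by ring
    rw [e1, e2, h2, h2, h2, Finset.mul_sum, Finset.mul_sum, ← Finset.sum_add_distrib]
    refine Finset.sum_congr rfl fun f _ => ?_
    linear_combination (P f) * hrel f
  exact mul_left_cancel₀ two_ne_zero key

/-- The relation of `adj0` without the pair `(k, k+1)` is invariant under the swap. -/
theorem swap_inv (n : ℕ) (adj0 : ℕ → ℕ → Prop) (k : ℕ) (hk : k + 1 < n)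
    (htw1 : ∀ x, x < k → (adj0 x k ↔ adj0 x (k + 1)))
    (htw2 : ∀ y, k + 1 < y → y < n → (adj0 k y ↔ adj0 (k + 1) y))
    (a b : Fin n) :
    (fun a b : Fin n => a < b ∧ adj0 a b ∧ ¬ (a = ⟨k, by omega⟩ ∧ b = ⟨k + 1, hk⟩))
        (Equiv.swap (⟨k, by omega⟩ : Fin n) ⟨k + 1, hk⟩ a)
        (Equiv.swap (⟨k, by omega⟩ : Fin n) ⟨k + 1, hk⟩ b)
      ↔ (fun a b : Fin n => a < b ∧ adj0 a b ∧ ¬ (a = ⟨k, by omega⟩ ∧ b = ⟨k + 1, hk⟩)) a b := by
  have hval : ∀ x : Fin n, ((Equiv.swap (⟨k, by omega⟩ : Fin n) ⟨k + 1, hk⟩ x : Fin n) : ℕ)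
      = if (x : ℕ) = k then k + 1 else if (x : ℕ) = k + 1 then k else x := by
    intro x
    by_cases h1 : (x : ℕ) = k
    · have : x = ⟨k, by omega⟩ := Fin.ext h1
      rw [this, Equiv.swap_apply_left]
      simp
    · by_cases h2 : (x : ℕ) = k + 1
      · have : x = ⟨k + 1, hk⟩ := Fin.ext h2
        rw [this, Equiv.swap_apply_right]
        simp
      · rw [Equiv.swap_apply_of_ne_of_ne (fun h => h1 (congrArg Fin.val h))
          (fun h => h2 (congrArg Fin.val h)), if_neg h1, if_neg h2]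
  simp only [Fin.lt_def, Fin.ext_iff, hval]
  have hb := b.isLt
  have ha := a.isLt
  generalize (a : ℕ) = x at *
  generalize (b : ℕ) = y at *
  by_cases hx1 : x = k
  · subst hx1
    by_cases hy1 : y = x
    · subst hy1
      simp
    · by_cases hy2 : y = x + 1
      · subst hy2
        simp
      · simp only [if_true, if_neg hy1, if_neg hy2]
        constructor
        · rintro ⟨h1, h2, -⟩
          exact ⟨by omega, (htw2 y h1 hb).mpr h2, by omega⟩
        · rintro ⟨h1, h2, -⟩
          exact ⟨by omega, (htw2 y (by omega) hb).mp h2, by omega⟩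
  · by_cases hx2 : x = k + 1
    · subst hx2
      by_cases hy1 : y = k
      · subst hy1
        simp
      · by_cases hy2 : y = k + 1
        · subst hy2
          simp
        · simp only [if_true, if_neg hy1, if_neg hy2, if_neg hx1]
          constructor
          · rintro ⟨h1, h2, -⟩
            exact ⟨by omega, (htw2 y (by omega) hb).mp h2, by omega⟩
          · rintro ⟨h1, h2, -⟩
            exact ⟨by omega, (htw2 y (by omega) hb).mpr h2, by omega⟩
    · simp only [if_neg hx1, if_neg hx2]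
      by_cases hy1 : y = k
      · subst hy1
        simp only [if_true]
        constructor
        · rintro ⟨h1, h2, -⟩
          exact ⟨by omega, (htw1 x (by omega)).mpr h2, by omega⟩
        · rintro ⟨h1, h2, -⟩
          exact ⟨by omega, (htw1 x (by omega)).mp h2, by omega⟩
      · by_cases hy2 : y = k + 1
        · subst hy2
          simp only [if_true, if_neg hy1]
          constructor
          · rintro ⟨h1, h2, -⟩
            exact ⟨by omega, (htw1 x (by omega)).mp h2, by omega⟩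
          · rintro ⟨h1, h2, -⟩
            exact ⟨by omega, (htw1 x (by omega)).mpr h2, by omega⟩
        · simp only [if_neg hy1, if_neg hy2]

/-- Modular law, row version: `k, k+1` are adjacent twins of `adj0`, the vertex `i < k` is adjacent
to neither; `adj1` adds the edge `{i,k}` and `adj2` adds moreover `{i,k+1}`. -/
theorem modular_row (N n : ℕ) (adj0 adj1 adj2 : ℕ → ℕ → Prop) (i k : ℕ)
    (hik : i < k) (hk : k + 1 < n)
    (h1 : ∀ a b, a < b → b < n → (adj1 a b ↔ (adj0 a b ∨ (a = i ∧ b = k))))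
    (h2 : ∀ a b, a < b → b < n → (adj2 a b ↔ (adj1 a b ∨ (a = i ∧ b = k + 1))))
    (hn1 : ¬ adj0 i k) (hn2 : ¬ adj0 i (k + 1)) (hkk : adj0 k (k + 1))
    (htw1 : ∀ x, x < k → (adj0 x k ↔ adj0 x (k + 1)))
    (htw2 : ∀ y, k + 1 < y → y < n → (adj0 k y ↔ adj0 (k + 1) y)) :
    (1 + qq N) * XX N n adj1 = qq N * XX N n adj0 + XX N n adj2 := by
  set kF : Fin n := ⟨k, by omega⟩ with hkF
  set k1F : Fin n := ⟨k + 1, hk⟩ with hk1F
  set iF : Fin n := ⟨i, by omega⟩ with hiF
  set R0 : Fin n → Fin n → Prop := fun a b => a < b ∧ adj0 a b ∧ ¬ (a = kF ∧ b = k1F) with hR0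
  set t : Equiv.Perm (Fin n) := Equiv.swap kF k1F with ht
  have hw0 : ∀ f : Fin n → Fin N, WW N n (fun a b => a < b ∧ adj0 a b) f
      = WW N n R0 f * phi N (f kF) (f k1F) := by
    intro f
    refine WW_add N n R0 _ kF k1F (fun a b => ?_) (fun h => h.2.2 ⟨rfl, rfl⟩) f
    constructor
    · rintro ⟨hab, hadj⟩
      by_cases hc : a = kF ∧ b = k1F
      · exact Or.inr hc
      · exact Or.inl ⟨hab, hadj, hc⟩
    · rintro (⟨hab, hadj, -⟩ | ⟨rfl, rfl⟩)
      · exact ⟨hab, hadj⟩
      · exact ⟨by simp [hkF, hk1F, Fin.lt_def], hkk⟩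
  have hw1 : ∀ f : Fin n → Fin N, WW N n (fun a b => a < b ∧ adj1 a b) f
      = WW N n (fun a b => a < b ∧ adj0 a b) f * phi N (f iF) (f kF) := by
    intro f
    refine WW_add N n _ _ iF kF (fun a b => ?_) (fun h => hn1 h.2) f
    constructor
    · rintro ⟨hab, hadj⟩
      rcases (h1 a b hab b.isLt).mp hadj with h | ⟨h, h'⟩
      · exact Or.inl ⟨hab, h⟩
      · exact Or.inr ⟨Fin.ext h, Fin.ext h'⟩
    · rintro (⟨hab, hadj⟩ | ⟨rfl, rfl⟩)
      · exact ⟨hab, (h1 a b hab b.isLt).mpr (Or.inl hadj)⟩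
      · exact ⟨hik, (h1 i k hik (by omega)).mpr (Or.inr ⟨rfl, rfl⟩)⟩
  have hw2 : ∀ f : Fin n → Fin N, WW N n (fun a b => a < b ∧ adj2 a b) f
      = WW N n (fun a b => a < b ∧ adj1 a b) f * phi N (f iF) (f k1F) := by
    intro f
    refine WW_add N n _ _ iF k1F (fun a b => ?_) (fun h => ?_) f
    · constructor
      · rintro ⟨hab, hadj⟩
        rcases (h2 a b hab b.isLt).mp hadj with h | ⟨h, h'⟩
        · exact Or.inl ⟨hab, h⟩
        · exact Or.inr ⟨Fin.ext h, Fin.ext h'⟩
      · rintro (⟨hab, hadj⟩ | ⟨rfl, rfl⟩)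
        · exact ⟨hab, (h2 a b hab b.isLt).mpr (Or.inl hadj)⟩
        · exact ⟨by simp [hiF, hk1F, Fin.lt_def]; omega,
            (h2 i (k + 1) (by omega) hk).mpr (Or.inr ⟨rfl, rfl⟩)⟩
    · rcases (h1 i (k + 1) (by omega) hk).mp h.2 with h' | ⟨-, h'⟩
      · exact hn2 h'
      · omega
  have hti : t iF = iF := by
    apply Equiv.swap_apply_of_ne_of_ne
    · intro h
      have := congrArg Fin.val h
      simp [hiF, hkF] at this
      omega
    · intro h
      have := congrArg Fin.val h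
      simp [hiF, hk1F] at this
      omega
  have htk : t kF = k1F := Equiv.swap_apply_left _ _
  have htk1 : t k1F = kF := Equiv.swap_apply_right _ _
  have hmain := sum_core N n (fun f => WW N n R0 f * ∏ a : Fin n, X (f a))
    (fun f => phi N (f kF) (f k1F))
    (fun f => phi N (f kF) (f k1F) * phi N (f iF) (f kF))
    (fun f => phi N (f kF) (f k1F) * phi N (f iF) (f kF) * phi N (f iF) (f k1F)) t
    (by
      intro f
      rw [WW_perm N n R0 t (swap_inv n adj0 k hk htw1 htw2) f]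
      congr 1
      exact Equiv.prod_comp t (fun a => (X (f a) : RR N)))
    (by
      intro f
      simp only [Function.comp, hti, htk, htk1]
      linear_combination alg_row N (f kF) (f k1F) (f iF))
  unfold XX
  have e0 : ∀ f : Fin n → Fin N, wt N n adj0 f
      = (WW N n R0 f * ∏ a : Fin n, X (f a)) * phi N (f kF) (f k1F) := by
    intro f
    rw [wt_eq_WW, hw0]
    ring
  have e1 : ∀ f : Fin n → Fin N, wt N n adj1 f
      = (WW N n R0 f * ∏ a : Fin n, X (f a)) * (phi N (f kF) (f k1F) * phi N (f iF) (f kF)) := by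
    intro f
    rw [wt_eq_WW, hw1, hw0]
    ring
  have e2 : ∀ f : Fin n → Fin N, wt N n adj2 f
      = (WW N n R0 f * ∏ a : Fin n, X (f a))
        * (phi N (f kF) (f k1F) * phi N (f iF) (f kF) * phi N (f iF) (f k1F)) := by
    intro f
    rw [wt_eq_WW, hw2, hw1, hw0]
    ring
  simp_rw [e0, e1, e2]
  exact hmain

/-- Modular law, column version: `k, k+1` are adjacent twins of `adj0`, the vertex `i > k+1` is
adjacent to neither; `adj1` adds the edge `{k+1,i}` and `adj2` adds moreover `{k,i}`. -/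
theorem modular_col (N n : ℕ) (adj0 adj1 adj2 : ℕ → ℕ → Prop) (i k : ℕ)
    (hik : k + 1 < i) (hi : i < n)
    (h1 : ∀ a b, a < b → b < n → (adj1 a b ↔ (adj0 a b ∨ (a = k + 1 ∧ b = i))))
    (h2 : ∀ a b, a < b → b < n → (adj2 a b ↔ (adj1 a b ∨ (a = k ∧ b = i))))
    (hn1 : ¬ adj0 k i) (hn2 : ¬ adj0 (k + 1) i) (hkk : adj0 k (k + 1))
    (htw1 : ∀ x, x < k → (adj0 x k ↔ adj0 x (k + 1)))
    (htw2 : ∀ y, k + 1 < y → y < n → (adj0 k y ↔ adj0 (k + 1) y)) :
    (1 + qq N) * XX N n adj1 = qq N * XX N n adj0 + XX N n adj2 := by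
  have hk : k + 1 < n := by omega
  set kF : Fin n := ⟨k, by omega⟩ with hkF
  set k1F : Fin n := ⟨k + 1, hk⟩ with hk1F
  set iF : Fin n := ⟨i, hi⟩ with hiF
  set R0 : Fin n → Fin n → Prop := fun a b => a < b ∧ adj0 a b ∧ ¬ (a = kF ∧ b = k1F) with hR0
  set t : Equiv.Perm (Fin n) := Equiv.swap kF k1F with ht
  have hw0 : ∀ f : Fin n → Fin N, WW N n (fun a b => a < b ∧ adj0 a b) f
      = WW N n R0 f * phi N (f kF) (f k1F) := by
    intro f
    refine WW_add N n R0 _ kF k1F (fun a b => ?_) (fun h => h.2.2 ⟨rfl, rfl⟩) f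
    constructor
    · rintro ⟨hab, hadj⟩
      by_cases hc : a = kF ∧ b = k1F
      · exact Or.inr hc
      · exact Or.inl ⟨hab, hadj, hc⟩
    · rintro (⟨hab, hadj, -⟩ | ⟨rfl, rfl⟩)
      · exact ⟨hab, hadj⟩
      · exact ⟨by simp [hkF, hk1F, Fin.lt_def], hkk⟩
  have hw1 : ∀ f : Fin n → Fin N, WW N n (fun a b => a < b ∧ adj1 a b) f
      = WW N n (fun a b => a < b ∧ adj0 a b) f * phi N (f k1F) (f iF) := by
    intro f
    refine WW_add N n _ _ k1F iF (fun a b => ?_) (fun h => hn2 h.2) f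
    constructor
    · rintro ⟨hab, hadj⟩
      rcases (h1 a b hab b.isLt).mp hadj with h | ⟨h, h'⟩
      · exact Or.inl ⟨hab, h⟩
      · exact Or.inr ⟨Fin.ext h, Fin.ext h'⟩
    · rintro (⟨hab, hadj⟩ | ⟨rfl, rfl⟩)
      · exact ⟨hab, (h1 a b hab b.isLt).mpr (Or.inl hadj)⟩
      · exact ⟨hik, (h1 (k + 1) i hik hi).mpr (Or.inr ⟨rfl, rfl⟩)⟩
  have hw2 : ∀ f : Fin n → Fin N, WW N n (fun a b => a < b ∧ adj2 a b) f
      = WW N n (fun a b => a < b ∧ adj1 a b) f * phi N (f kF) (f iF) := by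
    intro f
    refine WW_add N n _ _ kF iF (fun a b => ?_) (fun h => ?_) f
    · constructor
      · rintro ⟨hab, hadj⟩
        rcases (h2 a b hab b.isLt).mp hadj with h | ⟨h, h'⟩
        · exact Or.inl ⟨hab, h⟩
        · exact Or.inr ⟨Fin.ext h, Fin.ext h'⟩
      · rintro (⟨hab, hadj⟩ | ⟨rfl, rfl⟩)
        · exact ⟨hab, (h2 a b hab b.isLt).mpr (Or.inl hadj)⟩
        · exact ⟨by simp [hiF, hkF, Fin.lt_def]; omega,
            (h2 k i (by omega) hi).mpr (Or.inr ⟨rfl, rfl⟩)⟩
    · rcases (h1 k i (by omega) hi).mp h.2 with h' | ⟨h', -⟩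
      · exact hn1 h'
      · omega
  have hti : t iF = iF := by
    apply Equiv.swap_apply_of_ne_of_ne
    · intro h
      have := congrArg Fin.val h
      simp [hiF, hkF] at this
      omega
    · intro h
      have := congrArg Fin.val h
      simp [hiF, hk1F] at this
      omega
  have htk : t kF = k1F := Equiv.swap_apply_left _ _
  have htk1 : t k1F = kF := Equiv.swap_apply_right _ _
  have hmain := sum_core N n (fun f => WW N n R0 f * ∏ a : Fin n, X (f a))
    (fun f => phi N (f kF) (f k1F))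
    (fun f => phi N (f kF) (f k1F) * phi N (f k1F) (f iF))
    (fun f => phi N (f kF) (f k1F) * phi N (f k1F) (f iF) * phi N (f kF) (f iF)) t
    (by
      intro f
      rw [WW_perm N n R0 t (swap_inv n adj0 k hk htw1 htw2) f]
      congr 1
      exact Equiv.prod_comp t (fun a => (X (f a) : RR N)))
    (by
      intro f
      simp only [Function.comp, hti, htk, htk1]
      linear_combination alg_col N (f kF) (f k1F) (f iF))
  unfold XX
  have e0 : ∀ f : Fin n → Fin N, wt N n adj0 f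
      = (WW N n R0 f * ∏ a : Fin n, X (f a)) * phi N (f kF) (f k1F) := by
    intro f
    rw [wt_eq_WW, hw0]
    ring
  have e1 : ∀ f : Fin n → Fin N, wt N n adj1 f
      = (WW N n R0 f * ∏ a : Fin n, X (f a)) * (phi N (f kF) (f k1F) * phi N (f k1F) (f iF)) := by
    intro f
    rw [wt_eq_WW, hw1, hw0]
    ring
  have e2 : ∀ f : Fin n → Fin N, wt N n adj2 f
      = (WW N n R0 f * ∏ a : Fin n, X (f a))
        * (phi N (f kF) (f k1F) * phi N (f k1F) (f iF) * phi N (f kF) (f iF)) := by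
    intro f
    rw [wt_eq_WW, hw2, hw1, hw0]
    ring
  simp_rw [e0, e1, e2]
  exact hmain

end Vale.Agent.P066
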