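import Vale.Agent.P066.Modular
import Vale.Agent.P066.Mul
import Vale.Agent.P066.Clique
import Vale.Agent.P066.LocalRel

/-!
# P066: graph operations and the local linear relations they satisfy

A graph `G` is a pair `(n, adj)`: vertices `0, ..., n` (so `n + 1` vertices, last vertex `n`).
-/

namespace Vale.Agent.P066

open MvPolynomial Finset

/-- `M(G; l, k)`: add new vertices `n+1, n+2, ...` forming a clique; the old last vertex `n` is
joined to the first `k` new vertices.  (The number `l` of new vertices is fixed by the vertex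
count given to `XX`.)  `melt n adj l` on `n + 1 + l` vertices is `G` with a clique `K_{l+1}` glued
at the vertex `n`. -/
def melt (n : ℕ) (adj : ℕ → ℕ → Prop) (k : ℕ) : ℕ → ℕ → Prop :=
  fun a b => (b ≤ n ∧ adj a b) ∨ (a = n ∧ b ≤ n + k) ∨ n < a

/-- `G` with `K_{p+1}` glued at `n` (new vertices `n+1..n+p`), followed by a clique on the
vertices `n+p+1, n+p+2, ...` whose first vertex `n+p+1` is joined to the last `k` of the vertices
`n+1..n+p`. -/
def zadj (n : ℕ) (adj : ℕ → ℕ → Prop) (p k : ℕ) : ℕ → ℕ → Prop :=
  fun a b => (b ≤ n + p ∧ melt n adj p a b) ∨ n + p < a ∨ (b = n + p + 1 ∧ n + p < a + k)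

theorem melt_low {n : ℕ} {adj : ℕ → ℕ → Prop} {k a b : ℕ} (hab : a < b) (hb : b ≤ n) :
    melt n adj k a b ↔ adj a b := by
  unfold melt
  by_cases h : adj a b <;> simp only [h, and_true, and_false, false_or, iff_true, iff_false] <;>
    omega

theorem melt_high {n : ℕ} {adj : ℕ → ℕ → Prop} {k a b : ℕ} (hb : n < b) :
    melt n adj k a b ↔ ((a = n ∧ b ≤ n + k) ∨ n < a) := by
  unfold melt
  have : ¬ b ≤ n := by omega
  simp only [this, false_and, false_or]

theorem zadj_low {n : ℕ} {adj : ℕ → ℕ → Prop} {p k a b : ℕ} (hab : a < b) (hb : b ≤ n + p) :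
    zadj n adj p k a b ↔ melt n adj p a b := by
  unfold zadj
  by_cases h : melt n adj p a b <;>
    simp only [h, and_true, and_false, false_or, iff_true, iff_false] <;> omega

theorem zadj_high {n : ℕ} {adj : ℕ → ℕ → Prop} {p k a b : ℕ} (hb : n + p < b) :
    zadj n adj p k a b ↔ (n + p < a ∨ (b = n + p + 1 ∧ n + p < a + k)) := by
  unfold zadj
  have : ¬ b ≤ n + p := by omega
  simp only [this, false_and, false_or]

/-- (I1) -/
theorem rel_melt (N n : ℕ) (adj : ℕ → ℕ → Prop) (l k : ℕ) (hk : k ≤ l) :
    qn N l * XX N (n + 1 + l) (melt n adj k)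
      = qn N k * XX N (n + 1 + l) (melt n adj l)
        + qq N ^ k * qn N (l - k) * (XX N (n + 1) adj * (qf N l * ee N l)) := by
  have h3 : ∀ k, k + 2 ≤ l → (1 + qq N) * XX N (n + 1 + l) (melt n adj (k + 1))
      = qq N * XX N (n + 1 + l) (melt n adj k) + XX N (n + 1 + l) (melt n adj (k + 2)) := by
    intro k hk
    refine modular_row N (n + 1 + l) _ _ _ n (n + k + 1) (by omega) (by omega) ?_ ?_ ?_ ?_ ?_ ?_ ?_
    · intro a b hab hb
      by_cases hbn : b ≤ n
      · rw [melt_low hab hbn, melt_low hab hbn]
        constructor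
        · exact Or.inl
        · rintro (h | h)
          · exact h
          · omega
      · rw [melt_high (by omega), melt_high (by omega)]; omega
    · intro a b hab hb
      by_cases hbn : b ≤ n
      · rw [melt_low hab hbn, melt_low hab hbn]
        constructor
        · exact Or.inl
        · rintro (h | h)
          · exact h
          · omega
      · rw [melt_high (by omega), melt_high (by omega)]; omega
    · rw [melt_high (by omega)]; omega
    · rw [melt_high (by omega)]; omega
    · rw [melt_high (by omega)]; omega
    · intro x hx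
      rw [melt_high (by omega), melt_high (by omega)]; omega
    · intro y hy hy2
      rw [melt_high (by omega), melt_high (by omega)]; omega
  have h0 : XX N (n + 1 + l) (melt n adj 0) = XX N (n + 1) adj * (qf N l * ee N l) := by
    rw [XX_mul N (n + 1) l (melt n adj 0)
      (by intro a b ha hb _; rw [melt_high (by omega)]; omega)]
    rw [XX_congr N (n + 1) (melt n adj 0) adj (fun a b hab hb => melt_low hab (by omega))]
    rw [XX_complete N l _ (fun a b _ _ => by rw [melt_high (by omega)]; omega)]
  have := local_of_three_term (qq N) l (fun k => XX N (n + 1 + l) (melt n adj k)) h3 k hk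
  simp only [h0] at this
  exact this

/-- (I2) -/
theorem rel_melt_glue (N n : ℕ) (adj : ℕ → ℕ → Prop) (p s k : ℕ) (hk : k ≤ p) :
    qn N p * XX N (n + 1 + (p + 1) + s) (melt (n + p + 1) (melt n adj k) s)
      = qn N k * XX N (n + 1 + (p + 1) + s) (melt (n + p + 1) (melt n adj p) s)
        + qq N ^ k * qn N (p - k) *
          (XX N (n + 1) adj * XX N (p + 1 + s) (melt p (fun _ _ => True) s)) := by
  have h3 : ∀ k, k + 2 ≤ p →
      (1 + qq N) * XX N (n + 1 + (p + 1) + s) (melt (n + p + 1) (melt n adj (k + 1)) s)
      = qq N * XX N (n + 1 + (p + 1) + s) (melt (n + p + 1) (melt n adj k) s)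
        + XX N (n + 1 + (p + 1) + s) (melt (n + p + 1) (melt n adj (k + 2)) s) := by
    intro k hk
    refine modular_row N (n + 1 + (p + 1) + s) _ _ _ n (n + k + 1) (by omega) (by omega)
      ?_ ?_ ?_ ?_ ?_ ?_ ?_
    · intro a b hab hb
      by_cases hbp : b ≤ n + p + 1
      · rw [melt_low hab hbp, melt_low hab hbp]
        by_cases hbn : b ≤ n
        · rw [melt_low hab hbn, melt_low hab hbn]
          constructor
          · exact Or.inl
          · rintro (h | h)
            · exact h
            · omega
        · rw [melt_high (by omega), melt_high (by omega)]; omega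
      · rw [melt_high (by omega), melt_high (by omega)]; omega
    · intro a b hab hb
      by_cases hbp : b ≤ n + p + 1
      · rw [melt_low hab hbp, melt_low hab hbp]
        by_cases hbn : b ≤ n
        · rw [melt_low hab hbn, melt_low hab hbn]
          constructor
          · exact Or.inl
          · rintro (h | h)
            · exact h
            · omega
        · rw [melt_high (by omega), melt_high (by omega)]; omega
      · rw [melt_high (by omega), melt_high (by omega)]; omega
    · rw [melt_low (by omega) (by omega), melt_high (by omega)]; omega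
    · rw [melt_low (by omega) (by omega), melt_high (by omega)]; omega
    · rw [melt_low (by omega) (by omega), melt_high (by omega)]; omega
    · intro x hx
      rw [melt_low (n := n + p + 1) (b := n + k + 1) (by omega) (by omega),
        melt_low (n := n + p + 1) (b := n + k + 1 + 1) (by omega) (by omega),
        melt_high (by omega), melt_high (by omega)]; omega
    · intro y hy hy2
      by_cases hyp : y ≤ n + p + 1
      · rw [melt_low (n := n + p + 1) (a := n + k + 1) (by omega) hyp,
          melt_low (n := n + p + 1) (a := n + k + 1 + 1) (by omega) hyp,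
          melt_high (by omega), melt_high (by omega)]; omega
      · rw [melt_high (by omega), melt_high (by omega)]; omega
  have h0 : XX N (n + 1 + (p + 1) + s) (melt (n + p + 1) (melt n adj 0) s)
      = XX N (n + 1) adj * XX N (p + 1 + s) (melt p (fun _ _ => True) s) := by
    rw [show n + 1 + (p + 1) + s = (n + 1) + (p + 1 + s) by omega]
    rw [XX_mul N (n + 1) (p + 1 + s) _ (by
      intro a b ha hb hb2
      by_cases hbp : b ≤ n + p + 1
      · rw [melt_low (by omega) hbp, melt_high (by omega)]; omega
      · rw [melt_high (by omega)]; omega)]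
    rw [XX_congr N (n + 1) (melt (n + p + 1) (melt n adj 0) s) adj (fun a b hab hb => by
      rw [melt_low hab (by omega), melt_low hab (by omega)])]
    rw [XX_congr N (p + 1 + s) (fun a b => melt (n + p + 1) (melt n adj 0) s (n + 1 + a) (n + 1 + b))
      (melt p (fun _ _ => True) s) (fun a b hab hb => by
        by_cases hbp : b ≤ p
        · rw [melt_low (by omega) (by omega), melt_high (by omega), melt_low hab hbp]
          simp only [iff_true]; omega
        · rw [melt_high (by omega), melt_high (by omega)]; omega)]
  have := local_of_three_term (qq N) p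
    (fun k => XX N (n + 1 + (p + 1) + s) (melt (n + p + 1) (melt n adj k) s)) h3 k hk
  simp only [h0] at this
  exact this

/-- (I3) -/
theorem rel_zadj (N n : ℕ) (adj : ℕ → ℕ → Prop) (p m k : ℕ) (hk : k ≤ p) :
    qn N p * XX N (n + 1 + p + (m + 1)) (zadj n adj p k)
      = qn N k * XX N (n + 1 + p + (m + 1)) (zadj n adj p p)
        + qq N ^ k * qn N (p - k) *
          (XX N (n + 1 + p) (melt n adj p) * (qf N (m + 1) * ee N (m + 1))) := by
  have h3 : ∀ k, k + 2 ≤ p →
      (1 + qq N) * XX N (n + 1 + p + (m + 1)) (zadj n adj p (k + 1))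
      = qq N * XX N (n + 1 + p + (m + 1)) (zadj n adj p k)
        + XX N (n + 1 + p + (m + 1)) (zadj n adj p (k + 2)) := by
    intro k hk
    obtain ⟨j, hj⟩ : ∃ j, p = k + 2 + j := ⟨p - (k + 2), by omega⟩
    refine modular_col N (n + 1 + p + (m + 1)) _ _ _ (n + p + 1) (n + j + 1) (by omega) (by omega)
      ?_ ?_ ?_ ?_ ?_ ?_ ?_
    · intro a b hab hb
      by_cases hbp : b ≤ n + p
      · rw [zadj_low hab hbp, zadj_low hab hbp]
        constructor
        · exact Or.inl
        · rintro (h | h)
          · exact h
          · omega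
      · rw [zadj_high (by omega), zadj_high (by omega)]; omega
    · intro a b hab hb
      by_cases hbp : b ≤ n + p
      · rw [zadj_low hab hbp, zadj_low hab hbp]
        constructor
        · exact Or.inl
        · rintro (h | h)
          · exact h
          · omega
      · rw [zadj_high (by omega), zadj_high (by omega)]; omega
    · rw [zadj_high (by omega)]; omega
    · rw [zadj_high (by omega)]; omega
    · rw [zadj_low (by omega) (by omega), melt_high (by omega)]; omega
    · intro x hx
      rw [zadj_low (by omega) (by omega), zadj_low (by omega) (by omega),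
        melt_high (by omega), melt_high (by omega)]; omega
    · intro y hy hy2
      by_cases hyp : y ≤ n + p
      · rw [zadj_low (by omega) hyp, zadj_low (by omega) hyp,
          melt_high (by omega), melt_high (by omega)]; omega
      · rw [zadj_high (by omega), zadj_high (by omega)]; omega
  have h0 : XX N (n + 1 + p + (m + 1)) (zadj n adj p 0)
      = XX N (n + 1 + p) (melt n adj p) * (qf N (m + 1) * ee N (m + 1)) := by
    rw [XX_mul N (n + 1 + p) (m + 1) (zadj n adj p 0)
      (by intro a b ha hb _; rw [zadj_high (by omega)]; omega)]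
    rw [XX_congr N (n + 1 + p) (zadj n adj p 0) (melt n adj p)
      (fun a b hab hb => zadj_low hab (by omega))]
    rw [XX_complete N (m + 1) _ (fun a b _ _ => by rw [zadj_high (by omega)]; omega)]
  have := local_of_three_term (qq N) p (fun k => XX N (n + 1 + p + (m + 1)) (zadj n adj p k)) h3 k hk
  simp only [h0] at this
  exact this

/-- `M(G; s+1, 1) = (G ∘ K_2) ∘ K_{s+1}`. -/
theorem XX_melt_one (N n : ℕ) (adj : ℕ → ℕ → Prop) (s : ℕ) :
    XX N (n + 1 + (s + 1)) (melt n adj 1) = XX N (n + 1 + 1 + s) (melt (n + 1) (melt n adj 1) s) := by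
  rw [show n + 1 + (s + 1) = n + 1 + 1 + s by omega]
  refine XX_congr _ _ _ _ fun a b hab hb => ?_
  by_cases hbn : b ≤ n + 1
  · rw [melt_low hab hbn]
  · rw [melt_high (by omega), melt_high (by omega)]; omega

/-- `zadj` with `k = p`. -/
theorem XX_zadj_full (N n : ℕ) (adj : ℕ → ℕ → Prop) (p m : ℕ) :
    XX N (n + 1 + p + (m + 1)) (zadj n adj p p)
      = XX N (n + 1 + (p + 1) + m) (melt (n + p + 1) (melt n adj p) m) := by
  rw [show n + 1 + p + (m + 1) = n + 1 + (p + 1) + m by omega]
  refine XX_congr _ _ _ _ fun a b hab hb => ?_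
  by_cases hbp : b ≤ n + p
  · rw [zadj_low hab hbp, melt_low (n := n + p + 1) hab (by omega)]
  · by_cases hbp1 : b ≤ n + p + 1
    · rw [zadj_high (by omega), melt_low hab hbp1, melt_high (by omega)]; omega
    · rw [zadj_high (by omega), melt_high (by omega)]; omega

/-- `zadj` with `k = 1` (needs `1 ≤ p`). -/
theorem XX_zadj_one (N n : ℕ) (adj : ℕ → ℕ → Prop) (p m : ℕ) (hp : 1 ≤ p) :
    XX N (n + 1 + p + (m + 1)) (zadj n adj p 1)
      = XX N (n + p + 1 + (m + 1)) (melt (n + p) (melt n adj p) 1) := by
  rw [show n + 1 + p + (m + 1) = n + p + 1 + (m + 1) by omega]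
  refine XX_congr _ _ _ _ fun a b hab hb => ?_
  by_cases hbp : b ≤ n + p
  · rw [zadj_low hab hbp, melt_low hab hbp]
  · rw [zadj_high (by omega), melt_high (by omega)]; omega

/-- gluing a clique at the vertex `n+p+1` of `zadj`. -/
theorem XX_zadj_glue (N n : ℕ) (adj : ℕ → ℕ → Prop) (p k s : ℕ) :
    XX N (n + p + 1 + 1 + s) (melt (n + p + 1) (zadj n adj p k) s)
      = XX N (n + 1 + p + (s + 1)) (zadj n adj p k) := by
  rw [show n + p + 1 + 1 + s = n + 1 + p + (s + 1) by omega]
  refine XX_congr _ _ _ _ fun a b hab hb => ?_
  by_cases hbp : b ≤ n + p + 1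
  · rw [melt_low hab hbp]
  · rw [zadj_high (by omega), melt_high (by omega)]; omega

/-- `melt` respects agreement of adjacencies on the old vertices. -/
theorem melt_congr (n : ℕ) (adj adj' : ℕ → ℕ → Prop) (k : ℕ)
    (h : ∀ a b, a < b → b ≤ n → (adj a b ↔ adj' a b)) :
    ∀ a b, a < b → (melt n adj k a b ↔ melt n adj' k a b) := by
  intro a b hab
  by_cases hbn : b ≤ n
  · rw [melt_low hab hbn, melt_low hab hbn]; exact h a b hab hbn
  · rw [melt_high (by omega), melt_high (by omega)]

end Vale.Agent.P066
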