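import Mathlib

/-!
# P066: the definitions used in the statements of the hand-ins
-/

namespace Vale.Agent.P066

open MvPolynomial Finset

/-- The chromatic quasisymmetric function of the natural unit interval graph `G(h)`, restricted to
the `N` variables `x_0, ..., x_{N-1}`, with coefficients in `ℤ[q]`.
Vertices are `0, ..., n-1`; `{a, b}` with `a < b` is an edge iff `b ≤ h a`.  The sum runs over the
proper colourings `f` with colours `0, ..., N-1`, weighted by `q` to the number of edges `a < b`
with `f a < f b`, times the monomial `∏ x_{f a}`. -/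
noncomputable def chromQ (n : ℕ) (h : ℕ → ℕ) (N : ℕ) : MvPolynomial (Fin N) (Polynomial ℤ) :=
  ∑ f : Fin n → Fin N,
    if (∀ a b : Fin n, a < b → (b : ℕ) ≤ h a → f a ≠ f b) then
      C (Polynomial.X ^ (univ.filter (fun p : Fin n × Fin n =>
        p.1 < p.2 ∧ (p.2 : ℕ) ≤ h p.1 ∧ f p.1 < f p.2)).card) * ∏ a : Fin n, X (f a)
    else 0

/-- `e_lambda(x_0, ..., x_{N-1})`, the product of the elementary symmetric polynomials `e_i` over
the parts `i` of the partition `lambda`. -/
noncomputable def ePart (N : ℕ) {d : ℕ} (p : Nat.Partition d) :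
    MvPolynomial (Fin N) (Polynomial ℤ) :=
  (p.parts.map (fun i => esymm (Fin N) (Polynomial ℤ) i)).prod

end Vale.Agent.P066
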